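import Mathlib
import Crest.Prelude.Def_OrderedMatrix

set_option autoImplicit false

namespace Crest.Agent.H4.S66

/-- classes of rows (and columns) of the host matrix -/
inductive Cls
  | pad
  | fr (q a : ℕ)
  | zm
  | sp (i x : ℕ)
  | us
  | zp
  deriving DecidableEq

open Cls

/-- region number -/
def reg : Cls → ℕ
  | pad => 0
  | fr _ _ => 1
  | zm => 2
  | sp _ _ => 3
  | us => 4
  | zp => 5

def isT (a : ℕ) : Bool := decide (4 ≤ a) && decide (a ≤ 7)

def rk (a : ℕ) : ℕ := if a = 8 then 4 else a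

/-- the rigid 9 × 9 frame -/
def Gam (a b : ℕ) : Bool :=
  if isT a then (if isT b then decide (a ≠ b) else decide (2 ≤ rk b))
  else (if isT b then decide (2 ≤ rk a) else decide (4 ≤ rk a + rk b))

lemma Gam_comm (a b : ℕ) : Gam a b = Gam b a := by
  unfold Gam
  by_cases ha : isT a <;> by_cases hb : isT b <;> simp [ha, hb, add_comm, eq_comm]

/-- u-type relation -/
def uT (h : ℕ) : Cls → ℕ → Bool
  | sp i x, q => decide (q = 2 * (i - 1) + (x / 2 ^ (h - i)) % 2)
  | us, q => decide (q = 2 * h + 2)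
  | _, _ => false

/-- x-type relation -/
def xT (h : ℕ) : Cls → ℕ → Bool
  | sp i _, q => decide (q / 2 = i)
  | zm, q => decide (q / 2 = 0)
  | zp, q => decide (q / 2 = 0) || decide (q = 2 * h + 2)
  | _, _ => false

def code (h : ℕ) (s : Cls) (q a : ℕ) : Bool :=
  (uT h s q && (decide (a = 0) || decide (a = 8))) || (xT h s q && decide (a = 1))

/-- special-special values -/
def ss (h : ℕ) : Cls → Cls → Bool
  | sp i x, sp j y => decide (min i j ≤ h) && decide (x / 2 ^ (h - min i j) = y / 2 ^ (h - min i j))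
  | us, us => false
  | _, _ => true

lemma ss_comm (h : ℕ) (s t : Cls) : ss h s t = ss h t s := by
  cases s <;> cases t <;> simp [ss, min_comm, eq_comm]

/-- the value of the host -/
def val (h : ℕ) : Cls → Cls → Bool
  | pad, _ => true
  | _, pad => true
  | fr q a, fr q' a' =>
      Gam a a' && !(decide (a = 8) && decide (a' = 8) && decide (q ≠ q') && decide (q / 2 = q' / 2))
  | fr q a, t => code h t q a
  | s, fr q a => code h s q a
  | s, t => ss h s t

lemma val_comm (h : ℕ) (s t : Cls) : val h s t = val h t s := by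
  cases s <;> cases t <;> simp [val, ss, min_comm, eq_comm]
  rename_i q a q' a'
  rw [Gam_comm a a']
  by_cases h1 : a = 8 <;> by_cases h2 : a' = 8 <;> simp [h1, h2, eq_comm]

/-- classes of the pattern -/
def Hc (a b : ℕ) : Bool :=
  if a < 9 then
    (if b < 9 then Gam a b
     else if b = 10 then decide (a = 0) || decide (a = 8) else decide (a = 1))
  else if b < 9 then
    (if a = 10 then decide (b = 0) || decide (b = 8) else decide (b = 1))
  else !(decide (a = 10) && decide (b = 10))

lemma Hc_comm (a b : ℕ) : Hc a b = Hc b a := by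
  unfold Hc
  by_cases h1 : a < 9 <;> by_cases h2 : b < 9 <;> simp [h1, h2, Gam_comm a b, Bool.and_comm, Bool.or_comm, or_comm]

/-- well-formedness -/
def WF (h : ℕ) : Cls → Prop
  | fr q a => q < 2 * h + 3 ∧ a < 9
  | sp i x => 1 ≤ i ∧ i ≤ h + 1 ∧ x < 2 ^ h
  | _ => True

/-- order relation between classes of consecutive lines -/
def Ord (s t : Cls) : Prop :=
  reg s ≤ reg t ∧
  (∀ q a q' a', s = fr q a → t = fr q' a' → 9 * q + a ≤ 9 * q' + a') ∧
  (∀ i x j y, s = sp i x → t = sp j y → x ≤ y)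

/-- a core placement -/
structure Core (h : ℕ) (R C : ℕ → Cls) : Prop where
  wfR : ∀ a, a < 12 → WF h (R a)
  wfC : ∀ a, a < 12 → WF h (C a)
  npR : ∀ a, a < 12 → R a ≠ pad
  npC : ∀ a, a < 12 → C a ≠ pad
  oR : ∀ a b, a ≤ b → b < 12 → Ord (R a) (R b)
  oC : ∀ a b, a ≤ b → b < 12 → Ord (C a) (C b)
  v : ∀ a b, a < 12 → b < 12 → val h (R a) (C b) = Hc a b

lemma Core.symm {h : ℕ} {R C : ℕ → Cls} (H : Core h R C) : Core h C R where
  wfR := H.wfC
  wfC := H.wfR
  npR := H.npC
  npC := H.npR
  oR := H.oC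
  oC := H.oR
  v := fun a b ha hb => by rw [val_comm, H.v b a hb ha, Hc_comm]

end Crest.Agent.H4.S66
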