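import Mathlib
import Crest.Agent.H4.S66Defs

set_option autoImplicit false

namespace Crest.Agent.H4.S66
open Cls

variable {h : ℕ} {R C : ℕ → Cls}

lemma Core.regpos (H : Core h R C) {a : ℕ} (ha : a < 12) : 1 ≤ reg (R a) := by
  have := H.npR a ha
  cases hR : R a <;> simp_all [reg]

lemma Core.regmono (H : Core h R C) {a b : ℕ} (hab : a ≤ b) (hb : b < 12) :
    reg (R a) ≤ reg (R b) := (H.oR a b hab hb).1

lemma Core.fr_of (H : Core h R C) {a : ℕ} (ha : a < 12) (h1 : reg (R a) < 2) :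
    ∃ q p, R a = fr q p ∧ q < 2 * h + 3 ∧ p < 9 := by
  have h2 := H.regpos ha
  have h3 := H.wfR a ha
  cases hR : R a <;> simp_all [reg, WF]

lemma Hc_col_dist : ∀ b < 9, ∀ b' < 9, b ≠ b' → ∃ a < 9, Hc a b ≠ Hc a b' := by
  decide

/-- distinct frame columns of the pattern are in distinct classes -/
lemma Core.col_ne (H : Core h R C) {b b' : ℕ} (hb : b < 9) (hb' : b' < 9) (hne : b ≠ b') :
    C b ≠ C b' := by
  intro he
  obtain ⟨a, ha, hd⟩ := Hc_col_dist b hb b' hb' hne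
  apply hd
  rw [← H.v a b (by omega) (by omega), ← H.v a b' (by omega) (by omega), he]

/-- strict increase of type numbers -/
lemma Core.col_lt (H : Core h R C) {b b' : ℕ} (hlt : b < b') (hb' : b' < 9)
    {q p q' p' : ℕ} (h1 : C b = fr q p) (h2 : C b' = fr q' p') : 9 * q + p < 9 * q' + p' := by
  have h3 := (H.oC b b' hlt.le (by omega)).2.1 q p q' p' h1 h2
  have h4 := H.col_ne (by omega : b < 9) hb' (by omega)
  have h5 := H.wfC b (by omega)
  have h6 := H.wfC b' (by omega)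
  rw [h1] at h5
  rw [h2] at h6
  simp only [WF] at h5 h6
  rcases Nat.lt_or_ge (9 * q + p) (9 * q' + p') with h7 | h7
  · exact h7
  · exfalso
    apply h4
    rw [h1, h2]
    have : q = q' := by omega
    have : p = p' := by omega
    subst_vars
    rfl

lemma five_in_four {v1 v2 v3 v4 t0 t1 t2 t3 t4 : ℕ}
    (h0 : t0 = v1 ∨ t0 = v2 ∨ t0 = v3 ∨ t0 = v4)
    (h1 : t1 = v1 ∨ t1 = v2 ∨ t1 = v3 ∨ t1 = v4)
    (h2 : t2 = v1 ∨ t2 = v2 ∨ t2 = v3 ∨ t2 = v4)
    (h3 : t3 = v1 ∨ t3 = v2 ∨ t3 = v3 ∨ t3 = v4)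
    (h4 : t4 = v1 ∨ t4 = v2 ∨ t4 = v3 ∨ t4 = v4)
    (v12 : v1 ≤ v2) (v23 : v2 ≤ v3) (v34 : v3 ≤ v4)
    (t01 : t0 < t1) (t12 : t1 < t2) (t23 : t2 < t3) (t34 : t3 < t4) : False := by
  have a1 : v2 ≤ t1 := by omega
  have a2 : v3 ≤ t2 := by omega
  have a3 : v4 ≤ t3 := by omega
  omega

/-- the types on which a special line has a one: at most four -/
lemma code_types {s : Cls} (hs : 2 ≤ reg s) (hw : WF h s) :
    ∃ v1 v2 v3 v4 : ℕ, v1 ≤ v2 ∧ v2 ≤ v3 ∧ v3 ≤ v4 ∧
      ∀ q p, code h s q p = true → q < 2 * h + 3 →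
        (9 * q + p = v1 ∨ 9 * q + p = v2 ∨ 9 * q + p = v3 ∨ 9 * q + p = v4) := by
  cases s with
  | pad => simp [reg] at hs
  | fr q a => simp [reg] at hs
  | zm =>
    refine ⟨1, 1, 1, 10, by omega, by omega, by omega, ?_⟩
    intro q p hc _
    simp [code, uT, xT] at hc
    omega
  | sp i x =>
    obtain ⟨hi, hi2, hx⟩ := hw
    have hb : (x / 2 ^ (h - i)) % 2 < 2 := Nat.mod_lt _ (by norm_num)
    refine ⟨9 * (2 * (i - 1) + (x / 2 ^ (h - i)) % 2), 9 * (2 * (i - 1) + (x / 2 ^ (h - i)) % 2) + 8,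
      18 * i + 1, 18 * i + 10, by omega, by omega, by omega, ?_⟩
    intro q p hc _
    simp [code, uT, xT] at hc
    omega
  | us =>
    refine ⟨9 * (2 * h + 2), 9 * (2 * h + 2) + 8, 9 * (2 * h + 2) + 8, 9 * (2 * h + 2) + 8,
      by omega, by omega, by omega, ?_⟩
    intro q p hc _
    simp [code, uT, xT] at hc
    omega
  | zp =>
    refine ⟨1, 10, 9 * (2 * h + 2) + 1, 9 * (2 * h + 2) + 1,
      by omega, by omega, by omega, ?_⟩
    intro q p hc _
    simp [code, uT, xT] at hc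
    omega

lemma val_special_fr {s : Cls} (hs : 2 ≤ reg s) (q p : ℕ) : val h s (fr q p) = code h s q p := by
  cases s <;> simp [reg, val] at *

lemma val_fr_special {s : Cls} (hs : 2 ≤ reg s) (q p : ℕ) : val h (fr q p) s = code h s q p := by
  rw [val_comm, val_special_fr hs]

lemma val_special {s t : Cls} (hs : 2 ≤ reg s) (ht : 2 ≤ reg t) : val h s t = ss h s t := by
  cases s <;> cases t <;> simp [reg, val, ss] at *

/-- Step 1a -/
lemma Core.step1a (H : Core h R C) (hs : 2 ≤ reg (R 8)) : 2 ≤ reg (C 4) := by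
  by_contra hcon
  push Not at hcon
  have key : ∀ b, b ≤ 4 → ∃ q p, C b = fr q p ∧ q < 2 * h + 3 ∧ p < 9 := by
    intro b hb
    exact H.symm.fr_of (by omega) (lt_of_le_of_lt (H.symm.regmono hb (by omega)) hcon)
  obtain ⟨q0, p0, e0, l0, m0⟩ := key 0 (by omega)
  obtain ⟨q1, p1, e1, l1, m1⟩ := key 1 (by omega)
  obtain ⟨q2, p2, e2, l2, m2⟩ := key 2 (by omega)
  obtain ⟨q3, p3, e3, l3, m3⟩ := key 3 (by omega)
  obtain ⟨q4, p4, e4, l4, m4⟩ := key 4 (by omega)
  obtain ⟨v1, v2, v3, v4, h12, h23, h34, hcode⟩ := code_types (h := h) hs (H.wfR 8 (by omega))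
  have c0 : code h (R 8) q0 p0 = true := by
    rw [← val_special_fr hs, ← e0, H.v 8 0 (by omega) (by omega)]; rfl
  have c1 : code h (R 8) q1 p1 = true := by
    rw [← val_special_fr hs, ← e1, H.v 8 1 (by omega) (by omega)]; rfl
  have c2 : code h (R 8) q2 p2 = true := by
    rw [← val_special_fr hs, ← e2, H.v 8 2 (by omega) (by omega)]; rfl
  have c3 : code h (R 8) q3 p3 = true := by
    rw [← val_special_fr hs, ← e3, H.v 8 3 (by omega) (by omega)]; rfl
  have c4 : code h (R 8) q4 p4 = true := by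
    rw [← val_special_fr hs, ← e4, H.v 8 4 (by omega) (by omega)]; rfl
  exact five_in_four (hcode _ _ c0 l0) (hcode _ _ c1 l1) (hcode _ _ c2 l2) (hcode _ _ c3 l3)
    (hcode _ _ c4 l4) h12 h23 h34
    (H.col_lt (b := 0) (b' := 1) (by omega) (by omega) e0 e1)
    (H.col_lt (b := 1) (b' := 2) (by omega) (by omega) e1 e2)
    (H.col_lt (b := 2) (b' := 3) (by omega) (by omega) e2 e3)
    (H.col_lt (b := 3) (b' := 4) (by omega) (by omega) e3 e4)

/-- prefix agreement passes to coarser levels -/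
lemma prefix_coarsen {x y m m' : ℕ} (hm : m ≤ m') (he : x / 2 ^ (h - m') = y / 2 ^ (h - m')) :
    x / 2 ^ (h - m) = y / 2 ^ (h - m) := by
  have h1 : h - m = (h - m') + ((h - m) - (h - m')) := by omega
  rw [h1, pow_add, ← Nat.div_div_eq_div_mul, ← Nat.div_div_eq_div_mul, he]

lemma ss_sp {i x j y : ℕ} : ss h (sp i x) (sp j y) = true ↔
    min i j ≤ h ∧ x / 2 ^ (h - min i j) = y / 2 ^ (h - min i j) := by
  simp [ss]

/-- ultrametric closure -/
lemma ss_closure {i1 x1 i2 x2 j1 y1 j3 y3 : ℕ} (h1 : i1 ≤ i2) (h2 : i1 ≤ j1) (h3 : i1 ≤ j3)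
    (e13 : ss h (sp i1 x1) (sp j3 y3) = true) (e23 : ss h (sp i2 x2) (sp j3 y3) = true)
    (e21 : ss h (sp i2 x2) (sp j1 y1) = true) : ss h (sp i1 x1) (sp j1 y1) = true := by
  rw [ss_sp] at *
  rw [min_eq_left h3] at e13
  rw [min_eq_left h2]
  refine ⟨e13.1, ?_⟩
  have a := prefix_coarsen (h := h) (m := i1) (m' := min i2 j3) (by omega) e23.2
  have b := prefix_coarsen (h := h) (m := i1) (m' := min i2 j1) (by omega) e21.2
  rw [e13.2, ← a, b]

lemma ss_closure' {i1 x1 i2 x2 j1 y1 j3 y3 : ℕ} (h1 : i1 ≤ i2) (h2 : i1 ≤ j1) (h3 : i1 ≤ j3)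
    (e13 : ss h (sp j3 y3) (sp i1 x1) = true) (e23 : ss h (sp j3 y3) (sp i2 x2) = true)
    (e21 : ss h (sp j1 y1) (sp i2 x2) = true) : ss h (sp j1 y1) (sp i1 x1) = true := by
  rw [ss_comm] at *
  exact ss_closure h1 h2 h3 e13 e23 e21

lemma no_J3 {i1 x1 i2 x2 i3 x3 j1 y1 j2 y2 j3 y3 : ℕ}
    (f1 : ss h (sp i1 x1) (sp j1 y1) = false) (f2 : ss h (sp i2 x2) (sp j2 y2) = false)
    (f3 : ss h (sp i3 x3) (sp j3 y3) = false)
    (t12 : ss h (sp i1 x1) (sp j2 y2) = true) (t13 : ss h (sp i1 x1) (sp j3 y3) = true)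
    (t21 : ss h (sp i2 x2) (sp j1 y1) = true) (t23 : ss h (sp i2 x2) (sp j3 y3) = true)
    (t31 : ss h (sp i3 x3) (sp j1 y1) = true) (t32 : ss h (sp i3 x3) (sp j2 y2) = true) :
    False := by
  have cases6 : (i1 ≤ i2 ∧ i1 ≤ i3 ∧ i1 ≤ j1 ∧ i1 ≤ j2 ∧ i1 ≤ j3) ∨
      (i2 ≤ i1 ∧ i2 ≤ i3 ∧ i2 ≤ j1 ∧ i2 ≤ j2 ∧ i2 ≤ j3) ∨
      (i3 ≤ i1 ∧ i3 ≤ i2 ∧ i3 ≤ j1 ∧ i3 ≤ j2 ∧ i3 ≤ j3) ∨
      (j1 ≤ i1 ∧ j1 ≤ i2 ∧ j1 ≤ i3 ∧ j1 ≤ j2 ∧ j1 ≤ j3) ∨
      (j2 ≤ i1 ∧ j2 ≤ i2 ∧ j2 ≤ i3 ∧ j2 ≤ j1 ∧ j2 ≤ j3) ∨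
      (j3 ≤ i1 ∧ j3 ≤ i2 ∧ j3 ≤ i3 ∧ j3 ≤ j1 ∧ j3 ≤ j2) := by omega
  rcases cases6 with c | c | c | c | c | c
  · have := ss_closure c.1 c.2.2.1 c.2.2.2.2 t13 t23 t21
    simp_all
  · have := ss_closure (h := h) (i1 := i2) (i2 := i1) (j1 := j2) (j3 := j3) c.1 c.2.2.2.1 c.2.2.2.2 t23 t13 t12
    simp_all
  · have := ss_closure (h := h) (i1 := i3) (i2 := i1) (j1 := j3) (j3 := j2) c.1 c.2.2.2.2 c.2.2.2.1 t32 t12 t13
    simp_all
  · have := ss_closure' (h := h) (i1 := j1) (i2 := j2) (j1 := i1) (j3 := i3) c.2.2.2.1 c.1 c.2.2.1 t31 t32 t12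
    simp_all
  · have := ss_closure' (h := h) (i1 := j2) (i2 := j1) (j1 := i2) (j3 := i3) c.2.2.2.1 c.2.1 c.2.2.1 t32 t31 t21
    simp_all
  · have := ss_closure' (h := h) (i1 := j3) (i2 := j1) (j1 := i3) (j3 := i2) c.2.2.2.1 c.2.2.1 c.2.1 t23 t21 t31
    simp_all

lemma ss_false_cases {s t : Cls} (hs : 2 ≤ reg s) (ht : 2 ≤ reg t) (hf : ss h s t = false) :
    (s = us ∧ t = us) ∨ (∃ i x j y, s = sp i x ∧ t = sp j y) := by
  cases s <;> cases t <;> simp [reg, ss] at *

lemma no_J4 {S T : Fin 4 → Cls} (hS : ∀ a, 2 ≤ reg (S a)) (hT : ∀ a, 2 ≤ reg (T a))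
    (hv : ∀ a b, ss h (S a) (T b) = decide (a ≠ b)) : False := by
  have key : ∀ a, (S a = us ∧ T a = us) ∨ (∃ i x j y, S a = sp i x ∧ T a = sp j y) := by
    intro a
    exact ss_false_cases (hS a) (hT a) (by rw [hv]; simp)
  have noTwo : ∀ a b, a ≠ b → S a = us → T b = us → False := by
    intro a b hab h1 h2
    have := hv a b
    rw [h1, h2] at this
    simp [ss, hab] at this
  have three : ∀ a b c : Fin 4, a ≠ b → a ≠ c → b ≠ c →
      (∃ i x j y, S a = sp i x ∧ T a = sp j y) → (∃ i x j y, S b = sp i x ∧ T b = sp j y) →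
      (∃ i x j y, S c = sp i x ∧ T c = sp j y) → False := by
    rintro a b c hab hac hbc ⟨i1, x1, j1, y1, s1, t1⟩ ⟨i2, x2, j2, y2, s2, t2⟩
      ⟨i3, x3, j3, y3, s3, t3⟩
    have f1 := hv a a
    have f2 := hv b b
    have f3 := hv c c
    have t12 := hv a b
    have t13 := hv a c
    have t21 := hv b a
    have t23 := hv b c
    have t31 := hv c a
    have t32 := hv c b
    rw [s1] at f1 t12 t13
    rw [s2] at f2 t21 t23
    rw [s3] at f3 t31 t32
    rw [t1] at f1 t21 t31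
    rw [t2] at f2 t12 t32
    rw [t3] at f3 t13 t23
    have g1 : ss h (sp i1 x1) (sp j1 y1) = false := by rw [f1]; simp
    have g2 : ss h (sp i2 x2) (sp j2 y2) = false := by rw [f2]; simp
    have g3 : ss h (sp i3 x3) (sp j3 y3) = false := by rw [f3]; simp
    have g12 : ss h (sp i1 x1) (sp j2 y2) = true := by rw [t12]; simpa using hab
    have g13 : ss h (sp i1 x1) (sp j3 y3) = true := by rw [t13]; simpa using hac
    have g21 : ss h (sp i2 x2) (sp j1 y1) = true := by rw [t21]; simpa using hab.symm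
    have g23 : ss h (sp i2 x2) (sp j3 y3) = true := by rw [t23]; simpa using hbc
    have g31 : ss h (sp i3 x3) (sp j1 y1) = true := by rw [t31]; simpa using hac.symm
    have g32 : ss h (sp i3 x3) (sp j2 y2) = true := by rw [t32]; simpa using hbc.symm
    exact no_J3 g1 g2 g3 g12 g13 g21 g23 g31 g32
  rcases key 0 with k0 | k0 <;> rcases key 1 with k1 | k1 <;> rcases key 2 with k2 | k2 <;>
    rcases key 3 with k3 | k3 <;>
    first
      | exact noTwo 0 1 (by decide) k0.1 k1.2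
      | exact noTwo 0 2 (by decide) k0.1 k2.2
      | exact noTwo 0 3 (by decide) k0.1 k3.2
      | exact noTwo 1 2 (by decide) k1.1 k2.2
      | exact noTwo 1 3 (by decide) k1.1 k3.2
      | exact noTwo 2 3 (by decide) k2.1 k3.2
      | exact three 0 1 2 (by decide) (by decide) (by decide) k0 k1 k2
      | exact three 0 1 3 (by decide) (by decide) (by decide) k0 k1 k3
      | exact three 0 2 3 (by decide) (by decide) (by decide) k0 k2 k3
      | exact three 1 2 3 (by decide) (by decide) (by decide) k1 k2 k3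

/-- Step 1: the frame rows and columns are placed on frames -/
lemma Core.step1 (H : Core h R C) : reg (R 8) < 2 ∧ reg (C 8) < 2 := by
  have hR : reg (R 8) < 2 := by
    by_contra hcon
    push Not at hcon
    have hC4 := H.step1a hcon
    have hC8 : 2 ≤ reg (C 8) := le_trans hC4 (H.symm.regmono (by omega) (by omega))
    have hR4 := H.symm.step1a hC8
    refine no_J4 (h := h) (S := fun a => R (4 + a)) (T := fun a => C (4 + a)) ?_ ?_ ?_
    · intro a
      exact le_trans hR4 (H.regmono (by omega) (by omega))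
    · intro a
      exact le_trans hC4 (H.symm.regmono (by omega) (by omega))
    · intro a b
      have h1 : 2 ≤ reg (R (4 + a)) := le_trans hR4 (H.regmono (by omega) (by omega))
      have h2 : 2 ≤ reg (C (4 + b)) := le_trans hC4 (H.symm.regmono (by omega) (by omega))
      have := H.v (4 + a) (4 + b) (by omega) (by omega)
      rw [val_special h1 h2] at this
      rw [this]
      clear this h1 h2
      revert a b
      decide
  refine ⟨hR, ?_⟩
  by_contra hcon
  push Not at hcon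
  have := H.symm.step1a hcon
  have h2 := H.regmono (a := 4) (b := 8) (by omega) (by omega)
  omega

/-- rank of a frame index in the nested order -/
def Rk (a : ℕ) : ℕ := if isT a then 2 else if a ≤ 1 then a else if a = 8 then 5 else a + 1

lemma rank_step' : ∀ p p' j : Fin 9, Gam p j = false → Gam p' j = true →
    Rk p < Rk p' ∨ (Rk p = 2 ∧ Rk p' = 2) := by
  decide

lemma rank_step (p : ℕ) (hp : p < 9) (p' : ℕ) (hp' : p' < 9) (j : ℕ) (hj : j < 9)
    (h1 : Gam p j = false) (h2 : Gam p' j = true) :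
    Rk p < Rk p' ∨ (Rk p = 2 ∧ Rk p' = 2) :=
  rank_step' ⟨p, hp⟩ ⟨p', hp'⟩ ⟨j, hj⟩ h1 h2

lemma five_distinct {a b c d e : ℕ} (ha : 4 ≤ a ∧ a ≤ 7) (hb : 4 ≤ b ∧ b ≤ 7)
    (hc : 4 ≤ c ∧ c ≤ 7) (hd : 4 ≤ d ∧ d ≤ 7) (he : 4 ≤ e ∧ e ≤ 7)
    (h1 : a ≠ b) (h2 : a ≠ c) (h3 : a ≠ d) (h4 : a ≠ e) (h5 : b ≠ c) (h6 : b ≠ d) (h7 : b ≠ e)
    (h8 : c ≠ d) (h9 : c ≠ e) (h10 : d ≠ e) : False := by
  have hsub : ({a, b, c, d, e} : Finset ℕ) ⊆ Finset.Icc 4 7 := by
    intro x hx
    simp only [Finset.mem_insert, Finset.mem_singleton] at hx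
    rw [Finset.mem_Icc]
    rcases hx with rfl | rfl | rfl | rfl | rfl <;> assumption
  have hcard := Finset.card_le_card hsub
  rw [Finset.card_insert_of_notMem (by simp [h1, h2, h3, h4]),
    Finset.card_insert_of_notMem (by simp [h5, h6, h7]),
    Finset.card_insert_of_notMem (by simp [h8, h9]),
    Finset.card_insert_of_notMem (by simp [h10]), Finset.card_singleton] at hcard
  simp at hcard

lemma both_two {a b : ℕ} (h1 : a < b ∨ (a = 2 ∧ b = 2)) (h2 : b < a ∨ (b = 2 ∧ a = 2)) :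
    a = 2 ∧ b = 2 := by omega

lemma lt_of_step {a b : ℕ} (h1 : a < b ∨ (a = 2 ∧ b = 2)) (h2 : a ≠ 2 ∨ b ≠ 2) : a < b := by omega

lemma ranks_final {r0 r1 r2 r3 r8 : ℕ} (h01 : r0 < r1) (h1 : r1 < 2) (h2 : 2 < r2) (h23 : r2 < r3)
    (h38 : r3 < r8) (h8 : r8 ≤ 5) : r0 = 0 ∧ r1 = 1 ∧ r2 = 3 ∧ r8 = 5 := by omega

lemma Gam_sep : ∀ a < 9, ∀ a' < 9, a ≠ a' → ∃ b < 9, Gam a b ≠ Gam a' b := by
  decide

lemma Rk_two : ∀ p < 9, Rk p = 2 → 4 ≤ p ∧ p ≤ 7 := by decide

lemma Rk_inv : ∀ p < 9, (Rk p = 0 → p = 0) ∧ (Rk p = 1 → p = 1) ∧ (Rk p = 3 → p = 2) ∧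
    (Rk p = 4 → p = 3) ∧ (Rk p = 5 → p = 8) ∧ Rk p ≤ 5 := by decide

/-- the frame is rigid -/
lemma frame_rigid (f g : ℕ → ℕ) (hf : ∀ a < 9, f a < 9) (hg : ∀ b < 9, g b < 9)
    (hfg : ∀ a < 9, ∀ b < 9, Gam (f a) (g b) = Gam a b) :
    f 0 = 0 ∧ f 1 = 1 ∧ f 2 = 2 ∧ f 8 = 8 := by
  have step : ∀ a < 9, ∀ a' < 9, ∀ b < 9, Gam a b = false → Gam a' b = true →
      Rk (f a) < Rk (f a') ∨ (Rk (f a) = 2 ∧ Rk (f a') = 2) := by
    intro a ha a' ha' b hb h1 h2
    exact rank_step (f a) (hf a ha) (f a') (hf a' ha') (g b) (hg b hb)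
      (by rw [hfg a ha b hb, h1]) (by rw [hfg a' ha' b hb, h2])
  have inj : ∀ a < 9, ∀ a' < 9, a ≠ a' → f a ≠ f a' := by
    intro a ha a' ha' hne he
    obtain ⟨b, hb, hd⟩ := Gam_sep a ha a' ha' hne
    apply hd
    rw [← hfg a ha b hb, ← hfg a' ha' b hb, he]
  have s01 := step 0 (by omega) 1 (by omega) 3 (by omega) (by decide) (by decide)
  have s14 := step 1 (by omega) 4 (by omega) 2 (by omega) (by decide) (by decide)
  have s42 := step 4 (by omega) 2 (by omega) 4 (by omega) (by decide) (by decide)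
  have s23 := step 2 (by omega) 3 (by omega) 1 (by omega) (by decide) (by decide)
  have s38 := step 3 (by omega) 8 (by omega) 0 (by omega) (by decide) (by decide)
  have s45 := step 4 (by omega) 5 (by omega) 4 (by omega) (by decide) (by decide)
  have s54 := step 5 (by omega) 4 (by omega) 5 (by omega) (by decide) (by decide)
  have s67 := step 6 (by omega) 7 (by omega) 6 (by omega) (by decide) (by decide)
  have s76 := step 7 (by omega) 6 (by omega) 7 (by omega) (by decide) (by decide)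
  obtain ⟨r4, r5⟩ := both_two s45 s54
  obtain ⟨r6, r7⟩ := both_two s67 s76
  have t4 := Rk_two _ (hf 4 (by norm_num)) r4
  have t5 := Rk_two _ (hf 5 (by norm_num)) r5
  have t6 := Rk_two _ (hf 6 (by norm_num)) r6
  have t7 := Rk_two _ (hf 7 (by norm_num)) r7
  have d45 := inj 4 (by norm_num) 5 (by norm_num) (by norm_num)
  have d46 := inj 4 (by norm_num) 6 (by norm_num) (by norm_num)
  have d47 := inj 4 (by norm_num) 7 (by norm_num) (by norm_num)
  have d56 := inj 5 (by norm_num) 6 (by norm_num) (by norm_num)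
  have d57 := inj 5 (by norm_num) 7 (by norm_num) (by norm_num)
  have d67 := inj 6 (by norm_num) 7 (by norm_num) (by norm_num)
  have notT : ∀ a < 4, Rk (f a) ≠ 2 := by
    intro a ha h2
    have b4 : a ≠ 4 := ne_of_lt ha
    have b5 : a ≠ 5 := ne_of_lt (lt_trans ha (by norm_num))
    have b6 : a ≠ 6 := ne_of_lt (lt_trans ha (by norm_num))
    have b7 : a ≠ 7 := ne_of_lt (lt_trans ha (by norm_num))
    have ha9 : a < 9 := lt_trans ha (by norm_num)
    have t := Rk_two _ (hf a ha9) h2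
    have e4 := inj a ha9 4 (by norm_num) b4
    have e5 := inj a ha9 5 (by norm_num) b5
    have e6 := inj a ha9 6 (by norm_num) b6
    have e7 := inj a ha9 7 (by norm_num) b7
    exact five_distinct t t4 t5 t6 t7 e4 e5 e6 e7 d45 d46 d47 d56 d57 d67
  have n1 := notT 1 (by norm_num)
  have n2 := notT 2 (by norm_num)
  have n3 := notT 3 (by norm_num)
  have i0 := Rk_inv _ (hf 0 (by norm_num))
  have i1 := Rk_inv _ (hf 1 (by norm_num))
  have i2 := Rk_inv _ (hf 2 (by norm_num))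
  have i8 := Rk_inv _ (hf 8 (by norm_num))
  have l01 := lt_of_step s01 (Or.inr n1)
  have l14 := lt_of_step s14 (Or.inl n1)
  have l42 := lt_of_step s42 (Or.inr n2)
  have l23 := lt_of_step s23 (Or.inl n2)
  have l38 := lt_of_step s38 (Or.inl n3)
  rw [r4] at l14 l42
  have fin := ranks_final l01 l14 l42 l23 l38 i8.2.2.2.2.2
  exact ⟨i0.1 fin.1, i1.2.1 fin.2.1, i2.2.2.1 fin.2.2.1, i8.2.2.2.2.1 fin.2.2.2⟩

/-- data of the frame placement -/
lemma Core.frames (H : Core h R C) : ∃ f : ℕ → ℕ × ℕ,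
    ∀ b < 9, C b = fr (f b).1 (f b).2 ∧ (f b).1 < 2 * h + 3 ∧ (f b).2 < 9 := by
  have key : ∀ b, ∃ qp : ℕ × ℕ, b < 9 → C b = fr qp.1 qp.2 ∧ qp.1 < 2 * h + 3 ∧ qp.2 < 9 := by
    intro b
    by_cases hb : b < 9
    · obtain ⟨q, p, e, l, m⟩ := H.symm.fr_of (a := b) (by omega)
        (lt_of_le_of_lt (H.symm.regmono (a := b) (b := 8) (by omega) (by omega)) H.step1.2)
      exact ⟨(q, p), fun _ => ⟨e, l, m⟩⟩
    · exact ⟨(0, 0), fun hh => absurd hh hb⟩
  choose f hf using key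
  exact ⟨f, fun b hb => hf b hb⟩

/-- Lemma A: a row with two zeros (at columns 0 and 1) is not placed at index 8 -/
lemma Core.lemmaA (H : Core h R C) {a q : ℕ} (ha : a < 9) (h0 : Hc a 0 = false)
    (h1 : Hc a 1 = false) (he : R a = fr q 8) : False := by
  obtain ⟨f, hf⟩ := H.frames
  obtain ⟨e0, l0, m0⟩ := hf 0 (by omega)
  obtain ⟨e1, l1, m1⟩ := hf 1 (by omega)
  have v0 := H.v a 0 (by omega) (by omega)
  have v1 := H.v a 1 (by omega) (by omega)
  rw [he, e0, h0] at v0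
  rw [he, e1, h1] at v1
  have G8 : ∀ p < 9, Gam 8 p = true := by decide
  simp only [val, G8 _ m0, G8 _ m1, Bool.true_and, Bool.not_eq_false', Bool.and_eq_true,
    decide_eq_true_eq] at v0 v1
  have := H.col_lt (b := 0) (b' := 1) (by omega) (by omega) e0 e1
  omega

lemma Hc_zero01 : ∀ a < 9, a ≠ 3 → a ≠ 8 → Hc a 0 = false ∧ Hc a 1 = false := by decide

lemma Gam_38 : ∀ a < 9, ∀ b < 9, (a = 3 ∨ a = 8) → (b = 3 ∨ b = 8) → Gam a b = true := by decide

lemma Hc_eq_Gam {a b : ℕ} (ha : a < 9) (hb : b < 9) : Hc a b = Gam a b := by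
  simp [Hc, ha, hb]

/-- Step 2: identification of the frame indices (columns) -/
lemma Core.step2 (H : Core h R C) : ∃ q0 q1 q2 q8 : ℕ,
    C 0 = fr q0 0 ∧ C 1 = fr q1 1 ∧ C 2 = fr q2 2 ∧ C 8 = fr q8 8 := by
  obtain ⟨f, hf⟩ := H.frames
  obtain ⟨g, hg⟩ := H.symm.frames
  have hfg : ∀ b < 9, ∀ a < 9, Gam (f b).2 (g a).2 = Gam b a := by
    intro b hb a ha
    obtain ⟨eb, lb, mb⟩ := hf b hb
    obtain ⟨ea, la, ma⟩ := hg a ha
    have v := H.v a b (by omega) (by omega)
    rw [ea, eb, Hc_eq_Gam ha hb, Gam_comm a b] at v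
    simp only [val] at v
    rw [Gam_comm]
    cases hG : Gam b a with
    | true =>
      rw [hG] at v
      simp only [Bool.and_eq_true] at v
      exact v.1
    | false =>
      rw [hG] at v
      by_contra hcon
      have hcon' : Gam (g a).2 (f b).2 = true := by simpa using hcon
      rw [hcon'] at v
      simp only [Bool.true_and, Bool.not_eq_false', Bool.and_eq_true, decide_eq_true_eq] at v
      obtain ⟨⟨⟨v1, v2⟩, v3⟩, v4⟩ := v
      have a38 : a = 3 ∨ a = 8 := by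
        by_contra hc
        push Not at hc
        have z := Hc_zero01 a ha hc.1 hc.2
        exact H.lemmaA ha z.1 z.2 (by rw [ea, v1])
      have b38 : b = 3 ∨ b = 8 := by
        by_contra hc
        push Not at hc
        have z := Hc_zero01 b hb hc.1 hc.2
        exact H.symm.lemmaA hb z.1 z.2 (by rw [eb, v2])
      have := Gam_38 b hb a ha b38 a38
      rw [hG] at this
      exact absurd this (by simp)
  have frd := frame_rigid (fun b => (f b).2) (fun a => (g a).2) (fun b hb => (hf b hb).2.2)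
    (fun a ha => (hg a ha).2.2) hfg
  refine ⟨(f 0).1, (f 1).1, (f 2).1, (f 8).1, ?_, ?_, ?_, ?_⟩
  · rw [(hf 0 (by omega)).1, frd.1]
  · rw [(hf 1 (by omega)).1, frd.2.1]
  · rw [(hf 2 (by omega)).1, frd.2.2.1]
  · rw [(hf 8 (by omega)).1, frd.2.2.2]

/-- Step 3: the special rows are placed in the special region -/
lemma Core.step3 (H : Core h R C) : 2 ≤ reg (R 9) := by
  by_contra hcon
  push Not at hcon
  obtain ⟨q, p, e, l, m⟩ := H.fr_of (a := 9) (by omega) hcon
  obtain ⟨q0, q1, q2, q8, e0, e1, e2, e8⟩ := H.step2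
  have v1 := H.v 9 1 (by omega) (by omega)
  have v2 := H.v 9 2 (by omega) (by omega)
  rw [e, e1] at v1
  rw [e, e2] at v2
  have key : ∀ p < 9, Gam p 1 = true → Gam p 2 = true := by decide
  simp [val, Hc] at v1 v2
  have := key p m v1
  simp_all

lemma uT_unique {s : Cls} {q q' : ℕ} (h1 : uT h s q = true) (h2 : uT h s q' = true) : q = q' := by
  cases s <;> simp_all [uT]

/-- Step 4 -/
lemma Core.step4 (H : Core h R C) : ∃ q : ℕ, C 8 = fr q 8 ∧ uT h (R 10) q = true ∧
    xT h (R 9) q = true ∧ xT h (R 11) q = true := by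
  obtain ⟨q0, q1, q2, q8, e0, e1, e2, e8⟩ := H.step2
  have s9 := H.step3
  have s10 : 2 ≤ reg (R 10) := le_trans s9 (H.regmono (by omega) (by omega))
  have s11 : 2 ≤ reg (R 11) := le_trans s9 (H.regmono (by omega) (by omega))
  have v0 := H.v 10 0 (by omega) (by omega)
  have v8 := H.v 10 8 (by omega) (by omega)
  rw [e0, val_special_fr s10] at v0
  rw [e8, val_special_fr s10] at v8
  have u0 : uT h (R 10) q0 = true := by simpa [code, Hc] using v0
  have u8 : uT h (R 10) q8 = true := by simpa [code, Hc] using v8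
  have hq := uT_unique u0 u8
  have o1 := (H.oC 0 1 (by omega) (by omega)).2.1 _ _ _ _ e0 e1
  have o2 := (H.oC 1 8 (by omega) (by omega)).2.1 _ _ _ _ e1 e8
  have hq1 : q1 = q8 := by omega
  have v9 := H.v 9 1 (by omega) (by omega)
  have v11 := H.v 11 1 (by omega) (by omega)
  rw [e1, val_special_fr s9] at v9
  rw [e1, val_special_fr s11] at v11
  have x9 : xT h (R 9) q1 = true := by simpa [code, Hc] using v9
  have x11 : xT h (R 11) q1 = true := by simpa [code, Hc] using v11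
  exact ⟨q8, e8, u8, hq1 ▸ x9, hq1 ▸ x11⟩

/-- structure of the three special rows when the middle one is `sp i x` -/
lemma Core.step5 (H : Core h R C) {i x q : ℕ} (hu : R 10 = sp i x) (hq : uT h (R 10) q = true)
    (h9 : xT h (R 9) q = true) (h11 : xT h (R 11) q = true) :
    (q = 2 * (i - 1) + (x / 2 ^ (h - i)) % 2) ∧ 1 ≤ i ∧ i ≤ h + 1 ∧ x < 2 ^ h ∧
    (2 ≤ i → ∃ x1 x2, R 9 = sp (i - 1) x1 ∧ R 11 = sp (i - 1) x2 ∧ x1 ≤ x ∧ x ≤ x2) := by
  have w10 := H.wfR 10 (by omega)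
  rw [hu] at w10 hq
  simp only [uT, decide_eq_true_eq] at hq
  obtain ⟨w1, w2, w3⟩ := w10
  refine ⟨hq, w1, w2, w3, ?_⟩
  intro hi
  have hb : (x / 2 ^ (h - i)) % 2 < 2 := Nat.mod_lt _ (by norm_num)
  have hq2 : q / 2 = i - 1 := by omega
  have r9 := H.regmono (a := 9) (b := 10) (by omega) (by omega)
  have r11 := H.regmono (a := 10) (b := 11) (by omega) (by omega)
  rw [hu] at r9 r11
  have k9 : ∃ x1, R 9 = sp (i - 1) x1 := by
    cases hR : R 9 <;> rw [hR] at h9 r9 <;> simp [xT, reg] at h9 r9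
    · omega
    · rename_i a b
      exact ⟨b, by rw [← hq2, ← h9]⟩
  have k11 : ∃ x2, R 11 = sp (i - 1) x2 := by
    cases hR : R 11 <;> rw [hR] at h11 r11 <;> simp [xT, reg] at h11 r11
    · rename_i a b
      exact ⟨b, by rw [← hq2, ← h11]⟩
    · omega
  obtain ⟨x1, e1⟩ := k9
  obtain ⟨x2, e2⟩ := k11
  exact ⟨x1, x2, e1, e2, (H.oR 9 10 (by omega) (by omega)).2.2 _ _ _ _ e1 hu,
    (H.oR 10 11 (by omega) (by omega)).2.2 _ _ _ _ hu e2⟩

lemma between_div {a b c m : ℕ} (h1 : a ≤ b) (h2 : b ≤ c) (h3 : a / m = c / m) : b / m = a / m := by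
  have e1 := Nat.div_le_div_right (c := m) h1
  have e2 := Nat.div_le_div_right (c := m) h2
  omega

/-- half of the final case analysis: `i < j` -/
lemma Core.case_lt (H : Core h R C) {i x j y : ℕ} (hu : R 10 = sp i x) (hv : C 10 = sp j y)
    (hij : i < j) {y1 y2 : ℕ} (c9 : C 9 = sp (j - 1) y1)
    (c11 : C 11 = sp (j - 1) y2) (h1 : y1 ≤ y) (h2 : y ≤ y2) : False := by
  have v9 := H.v 10 9 (by omega) (by omega)
  have v11 := H.v 10 11 (by omega) (by omega)
  have v10 := H.v 10 10 (by omega) (by omega)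
  rw [hu, c9, val_special (by simp [reg]) (by simp [reg])] at v9
  rw [hu, c11, val_special (by simp [reg]) (by simp [reg])] at v11
  rw [hu, hv, val_special (by simp [reg]) (by simp [reg])] at v10
  have v9' : ss h (sp i x) (sp (j - 1) y1) = true := by rw [v9]; decide
  have v11' : ss h (sp i x) (sp (j - 1) y2) = true := by rw [v11]; decide
  have v10' : ss h (sp i x) (sp j y) = false := by rw [v10]; decide
  rw [ss_sp, min_eq_left (by omega : i ≤ j - 1)] at v9' v11'
  have : ss h (sp i x) (sp j y) = true := by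
    rw [ss_sp, min_eq_left hij.le]
    refine ⟨v9'.1, ?_⟩
    rw [between_div h1 h2 (by rw [← v9'.2, ← v11'.2]), v9'.2]
  rw [v10'] at this
  exact absurd this (by simp)

lemma pow_aux {i : ℕ} (hi : 1 ≤ i) (hih : i ≤ h) : 2 ^ (h - (i - 1)) = 2 ^ (h - i) * 2 := by
  rw [← pow_succ]; congr 1; omega

/-- the main rigidity theorem -/
theorem Core.main (hh : 1 ≤ h) (H : Core h R C) :
    ∃ x, x < 2 ^ h ∧ R 10 = sp (h + 1) x ∧ C 10 = sp (h + 1) x := by
  obtain ⟨q', ec, hu, hx1, hx2⟩ := H.step4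
  obtain ⟨q, er, hv, hy1, hy2⟩ := H.symm.step4
  have sr : 2 ≤ reg (R 9) := H.step3
  have sr10 : 2 ≤ reg (R 10) := le_trans sr (H.regmono (by omega) (by omega))
  have sr11 : 2 ≤ reg (R 11) := le_trans sr (H.regmono (by omega) (by omega))
  have sc : 2 ≤ reg (C 9) := H.symm.step3
  have sc10 : 2 ≤ reg (C 10) := le_trans sc (H.symm.regmono (by omega) (by omega))
  have sc11 : 2 ≤ reg (C 11) := le_trans sc (H.symm.regmono (by omega) (by omega))
  have hflag : ¬ (q ≠ q' ∧ q / 2 = q' / 2) := by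
    have v88 := H.v 8 8 (by omega) (by omega)
    rw [er, ec] at v88
    rintro ⟨c1, c2⟩
    simp [val, c1, c2, Hc] at v88
    exact absurd v88 (by decide)
  have vuv : ss h (R 10) (C 10) = false := by
    rw [← val_special sr10 sc10, H.v 10 10 (by omega) (by omega)]; decide
  have v99 : ss h (R 9) (C 9) = true := by
    rw [← val_special sr sc, H.v 9 9 (by omega) (by omega)]; decide
  rcases ss_false_cases sr10 sc10 vuv with ⟨hus, hvs⟩ | ⟨i, x, j, y, hu', hv'⟩
  · -- both are `us`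
    exfalso
    have r9 := H.regmono (a := 9) (b := 10) (by omega) (by omega)
    have r9' := H.symm.regmono (a := 9) (b := 10) (by omega) (by omega)
    rw [hus] at hu r9
    rw [hvs] at hv r9'
    simp only [uT, decide_eq_true_eq] at hu hv
    subst hu hv
    have k9 : ∃ x1, R 9 = sp (h + 1) x1 := by
      cases hR : R 9 <;> rw [hR] at hx1 r9 <;> simp [xT, reg] at hx1 r9
      rename_i a b
      exact ⟨b, by rw [show h + 1 = a by omega]⟩
    have k9' : ∃ y1, C 9 = sp (h + 1) y1 := by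
      cases hR : C 9 <;> rw [hR] at hy1 r9' <;> simp [xT, reg] at hy1 r9'
      rename_i a b
      exact ⟨b, by rw [show h + 1 = a by omega]⟩
    obtain ⟨x1, e1⟩ := k9
    obtain ⟨y1, e2⟩ := k9'
    rw [e1, e2, ss_sp] at v99
    have := v99.1
    simp at this
  · obtain ⟨hq', i1, i2, xlt, hi⟩ := H.step5 hu' hu hx1 hx2
    obtain ⟨hq, j1, j2, ylt, hj⟩ := H.symm.step5 hv' hv hy1 hy2
    rcases lt_trichotomy i j with hij | hij | hij
    · obtain ⟨y1, y2, c9, c11, hy1', hy2'⟩ := hj (by omega)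
      exact (H.case_lt hu' hv' hij c9 c11 hy1' hy2').elim
    · subst hij
      have bx : (x / 2 ^ (h - i)) % 2 < 2 := Nat.mod_lt _ (by norm_num)
      have by' : (y / 2 ^ (h - i)) % 2 < 2 := Nat.mod_lt _ (by norm_num)
      have hqq : q = q' := by
        by_contra hne
        exact hflag ⟨hne, by omega⟩
      have hbits : (x / 2 ^ (h - i)) % 2 = (y / 2 ^ (h - i)) % 2 := by omega
      by_cases hih : i ≤ h
      · exfalso
        have hpar : x / 2 ^ (h - (i - 1)) = y / 2 ^ (h - (i - 1)) := by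
          by_cases hi2 : 2 ≤ i
          · obtain ⟨x1, x2, r9, r11, hx1', hx2'⟩ := hi hi2
            obtain ⟨y1, y2, c9, c11, hy1', hy2'⟩ := hj hi2
            have w1 := H.v 9 9 (by omega) (by omega)
            have w2 := H.v 9 11 (by omega) (by omega)
            have w3 := H.v 11 9 (by omega) (by omega)
            rw [r9, c9, val_special (by simp [reg]) (by simp [reg])] at w1
            rw [r9, c11, val_special (by simp [reg]) (by simp [reg])] at w2
            rw [r11, c9, val_special (by simp [reg]) (by simp [reg])] at w3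
            have w1' : ss h (sp (i - 1) x1) (sp (i - 1) y1) = true := by rw [w1]; decide
            have w2' : ss h (sp (i - 1) x1) (sp (i - 1) y2) = true := by rw [w2]; decide
            have w3' : ss h (sp (i - 1) x2) (sp (i - 1) y1) = true := by rw [w3]; decide
            rw [ss_sp, min_self] at w1' w2' w3'
            have a1 := between_div (m := 2 ^ (h - (i - 1))) hx1' hx2' (by rw [w1'.2, w3'.2])
            have a2 := between_div (m := 2 ^ (h - (i - 1))) hy1' hy2' (by rw [← w1'.2, ← w2'.2])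
            rw [a1, a2, w1'.2]
          · have : i = 1 := by omega
            subst this
            simp only [Nat.sub_self, Nat.sub_zero]
            rw [Nat.div_eq_of_lt xlt, Nat.div_eq_of_lt ylt]
        have hpow : 2 ^ (h - (i - 1)) = 2 ^ (h - i) * 2 := pow_aux i1 hih
        rw [hpow, ← Nat.div_div_eq_div_mul, ← Nat.div_div_eq_div_mul] at hpar
        have heq : x / 2 ^ (h - i) = y / 2 ^ (h - i) := by omega
        rw [hu', hv'] at vuv
        have : ss h (sp i x) (sp i y) = true := by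
          rw [ss_sp, min_self]; exact ⟨hih, heq⟩
        rw [vuv] at this
        exact absurd this (by simp)
      · have hi' : i = h + 1 := by omega
        subst hi'
        obtain ⟨x1, x2, r9, r11, hx1', hx2'⟩ := hi (by omega)
        obtain ⟨y1, y2, c9, c11, hy1', hy2'⟩ := hj (by omega)
        have w1 := H.v 9 9 (by omega) (by omega)
        have w2 := H.v 9 11 (by omega) (by omega)
        have w3 := H.v 11 9 (by omega) (by omega)
        rw [r9, c9, val_special (by simp [reg]) (by simp [reg])] at w1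
        rw [r9, c11, val_special (by simp [reg]) (by simp [reg])] at w2
        rw [r11, c9, val_special (by simp [reg]) (by simp [reg])] at w3
        have w1' : ss h (sp (h + 1 - 1) x1) (sp (h + 1 - 1) y1) = true := by rw [w1]; decide
        have w2' : ss h (sp (h + 1 - 1) x1) (sp (h + 1 - 1) y2) = true := by rw [w2]; decide
        have w3' : ss h (sp (h + 1 - 1) x2) (sp (h + 1 - 1) y1) = true := by rw [w3]; decide
        rw [ss_sp, min_self] at w1' w2' w3'
        simp at w1' w2' w3'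
        have hxy : x = y := by omega
        subst hxy
        exact ⟨x, xlt, hu', hv'⟩
    · obtain ⟨x1, x2, r9, r11, hx1', hx2'⟩ := hi (by omega)
      exact (H.symm.case_lt hv' hu' hij r9 r11 hx1' hx2').elim

end Crest.Agent.H4.S66
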