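import Mathlib
import Crest.Agent.H4.S66Rigid

set_option autoImplicit false

namespace Crest.Agent.H4.S66
open Cls

/-- number of padding types -/
def np (h : ℕ) : ℕ := 366 * h - 29

/-- type number of `zm` -/
def z0 (h : ℕ) : ℕ := np h + 9 * (2 * h + 3)

/-- the class of the line with index `r` -/
def cls (h r : ℕ) : Cls :=
  if r < np h * 2 ^ h then pad
  else if r < z0 h * 2 ^ h then fr ((r / 2 ^ h - np h) / 9) ((r / 2 ^ h - np h) % 9)
  else if r < (z0 h + 1) * 2 ^ h then zm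
  else if r < (z0 h + 1) * 2 ^ h + 2 ^ h * (2 * h + 1) then
    sp (min ((r - (z0 h + 1) * 2 ^ h) % (2 * h + 1)) (2 * h - (r - (z0 h + 1) * 2 ^ h) % (2 * h + 1)) + 1)
      ((r - (z0 h + 1) * 2 ^ h) / (2 * h + 1))
  else if r < (z0 h + 1) * 2 ^ h + 2 ^ h * (2 * h + 1) + 2 ^ h then us
  else zp

lemma cls_ord (h : ℕ) {r r' : ℕ} (hr : r ≤ r') : Ord (cls h r) (cls h r') := by
  have hd : r / 2 ^ h ≤ r' / 2 ^ h := Nat.div_le_div_right hr
  have hd2 : (r - (z0 h + 1) * 2 ^ h) / (2 * h + 1) ≤ (r' - (z0 h + 1) * 2 ^ h) / (2 * h + 1) :=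
    Nat.div_le_div_right (Nat.sub_le_sub_right hr _)
  have hz1 : np h * 2 ^ h ≤ z0 h * 2 ^ h := Nat.mul_le_mul_right _ (by unfold z0; omega)
  have hz2 : z0 h * 2 ^ h ≤ (z0 h + 1) * 2 ^ h := Nat.mul_le_mul_right _ (by omega)
  refine ⟨?_, ?_, ?_⟩
  · unfold cls
    split_ifs <;> simp only [reg] <;> omega
  · intro q a q' a' h1 h2
    unfold cls at h1 h2
    split_ifs at h1 h2
    simp only [fr.injEq] at h1 h2
    omega
  · intro i x j y h1 h2
    unfold cls at h1 h2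
    split_ifs at h1 h2
    simp only [sp.injEq] at h1 h2
    omega

lemma cls_wf {h r : ℕ} : WF h (cls h r) := by
  unfold cls
  split_ifs with h1 h2 h3 h4 h5
  · trivial
  · have : r / 2 ^ h < z0 h := (Nat.div_lt_iff_lt_mul (by positivity)).2 h2
    simp only [WF]
    unfold z0 at this
    omega
  · trivial
  · simp only [WF]
    have hm : (r - (z0 h + 1) * 2 ^ h) % (2 * h + 1) < 2 * h + 1 := Nat.mod_lt _ (by omega)
    refine ⟨by omega, by omega, ?_⟩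
    rw [Nat.div_lt_iff_lt_mul (by omega)]
    omega
  · trivial
  · trivial

lemma cls_sp_inv {h r x : ℕ} (hc : cls h r = sp (h + 1) x) :
    r = (z0 h + 1) * 2 ^ h + (x * (2 * h + 1) + h) := by
  unfold cls at hc
  split_ifs at hc with h1 h2 h3 h4 h5
  simp only [sp.injEq] at hc
  obtain ⟨hc1, hc2⟩ := hc
  have hm : (r - (z0 h + 1) * 2 ^ h) % (2 * h + 1) < 2 * h + 1 := Nat.mod_lt _ (by omega)
  have hm2 : (r - (z0 h + 1) * 2 ^ h) % (2 * h + 1) = h := by omega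
  have := Nat.div_add_mod (r - (z0 h + 1) * 2 ^ h) (2 * h + 1)
  rw [hc2, hm2, mul_comm] at this
  omega

/-- frame-like lines: type `k`, position `y` -/
def fl (h k y : ℕ) : ℕ := k * 2 ^ h + y

/-- interleaved special lines: slot `s`, position `x` -/
def sr (h s x : ℕ) : ℕ := (z0 h + 1) * 2 ^ h + (x * (2 * h + 1) + s)

def isSp (h r : ℕ) : Prop :=
  (z0 h + 1) * 2 ^ h ≤ r ∧ r < (z0 h + 1) * 2 ^ h + 2 ^ h * (2 * h + 1)

instance (h r : ℕ) : Decidable (isSp h r) := by unfold isSp; infer_instance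

def pos (h r : ℕ) : ℕ :=
  if isSp h r then (r - (z0 h + 1) * 2 ^ h) / (2 * h + 1) else r % 2 ^ h

lemma total_eq {h : ℕ} (hh : 1 ≤ h) : z0 h + 2 * h + 4 = 386 * h + 2 := by
  unfold z0 np; omega

lemma np_ge {h : ℕ} (hh : 1 ≤ h) : 54 ≤ np h := by
  unfold np; omega

lemma fl_lt {h k y m : ℕ} (hk : k < m) (hy : y < 2 ^ h) : fl h k y < m * 2 ^ h := by
  unfold fl
  have : (k + 1) * 2 ^ h ≤ m * 2 ^ h := Nat.mul_le_mul_right _ hk
  nlinarith

lemma le_fl {h k y m : ℕ} (hk : m ≤ k) : m * 2 ^ h ≤ fl h k y := by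
  unfold fl
  have : m * 2 ^ h ≤ k * 2 ^ h := Nat.mul_le_mul_right _ hk
  omega

lemma fl_div {h k y : ℕ} (hy : y < 2 ^ h) : fl h k y / 2 ^ h = k := by
  unfold fl
  rw [mul_comm, Nat.mul_add_div (by positivity), Nat.div_eq_of_lt hy, add_zero]

lemma fl_mod {h k y : ℕ} (hy : y < 2 ^ h) : fl h k y % 2 ^ h = y := by
  unfold fl
  rw [mul_comm, Nat.mul_add_mod, Nat.mod_eq_of_lt hy]

lemma cls_fl_pad {h k y : ℕ} (hk : k < np h) (hy : y < 2 ^ h) : cls h (fl h k y) = pad := by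
  unfold cls
  rw [if_pos (fl_lt hk hy)]

lemma cls_fl_fr {h k y : ℕ} (hk : np h ≤ k) (hk2 : k < z0 h) (hy : y < 2 ^ h) :
    cls h (fl h k y) = fr ((k - np h) / 9) ((k - np h) % 9) := by
  unfold cls
  rw [if_neg (not_lt.2 (le_fl hk)), if_pos (fl_lt hk2 hy), fl_div hy]

lemma cls_fl_fr' {h q a y : ℕ} (hq : q < 2 * h + 3) (ha : a < 9) (hy : y < 2 ^ h) :
    cls h (fl h (np h + 9 * q + a) y) = fr q a := by
  rw [cls_fl_fr (by omega) (by unfold z0; omega) hy]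
  congr 1 <;> omega

lemma cls_fl_zm {h y : ℕ} (hy : y < 2 ^ h) : cls h (fl h (z0 h) y) = zm := by
  unfold cls
  rw [if_neg (not_lt.2 (le_fl (by unfold z0; omega))), if_neg (not_lt.2 (le_fl le_rfl)),
    if_pos (fl_lt (by omega) hy)]

lemma mul_aux (h : ℕ) : (z0 h + 1) * 2 ^ h + 2 ^ h * (2 * h + 1) = (z0 h + 2 * h + 2) * 2 ^ h := by
  ring

lemma mul_aux2 (h : ℕ) : (z0 h + 1) * 2 ^ h + 2 ^ h * (2 * h + 1) + 2 ^ h =
    (z0 h + 2 * h + 3) * 2 ^ h := by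
  ring

lemma cls_fl_us {h y : ℕ} (hy : y < 2 ^ h) : cls h (fl h (z0 h + 2 * h + 2) y) = us := by
  unfold cls
  rw [mul_aux2, mul_aux]
  rw [if_neg (not_lt.2 (le_fl (by unfold z0; omega))), if_neg (not_lt.2 (le_fl (by omega))),
    if_neg (not_lt.2 (le_fl (by omega))), if_neg (not_lt.2 (le_fl (by omega))),
    if_pos (fl_lt (by omega) hy)]

lemma cls_fl_zp {h y : ℕ} : cls h (fl h (z0 h + 2 * h + 3) y) = zp := by
  unfold cls
  rw [mul_aux2, mul_aux]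
  rw [if_neg (not_lt.2 (le_fl (by unfold z0; omega))), if_neg (not_lt.2 (le_fl (by omega))),
    if_neg (not_lt.2 (le_fl (by omega))), if_neg (not_lt.2 (le_fl (by omega))),
    if_neg (not_lt.2 (le_fl (by omega)))]

lemma sr_lt {h s x : ℕ} (hs : s < 2 * h + 1) (hx : x < 2 ^ h) :
    sr h s x < (z0 h + 1) * 2 ^ h + 2 ^ h * (2 * h + 1) := by
  unfold sr
  have : (x + 1) * (2 * h + 1) ≤ 2 ^ h * (2 * h + 1) := Nat.mul_le_mul_right _ hx
  nlinarith

lemma isSp_sr {h s x : ℕ} (hs : s < 2 * h + 1) (hx : x < 2 ^ h) : isSp h (sr h s x) :=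
  ⟨by unfold sr; omega, sr_lt hs hx⟩

lemma sr_sub {h s x : ℕ} : sr h s x - (z0 h + 1) * 2 ^ h = x * (2 * h + 1) + s := by
  unfold sr; omega

lemma sr_div {h s x : ℕ} (hs : s < 2 * h + 1) :
    (sr h s x - (z0 h + 1) * 2 ^ h) / (2 * h + 1) = x := by
  rw [sr_sub, mul_comm, Nat.mul_add_div (by omega), Nat.div_eq_of_lt hs, add_zero]

lemma sr_mod {h s x : ℕ} (hs : s < 2 * h + 1) :
    (sr h s x - (z0 h + 1) * 2 ^ h) % (2 * h + 1) = s := by
  rw [sr_sub, mul_comm, Nat.mul_add_mod, Nat.mod_eq_of_lt hs]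

lemma pos_sr {h s x : ℕ} (hs : s < 2 * h + 1) (hx : x < 2 ^ h) : pos h (sr h s x) = x := by
  unfold pos
  rw [if_pos (isSp_sr hs hx), sr_div hs]

lemma cls_sr {h s x : ℕ} (hs : s < 2 * h + 1) (hx : x < 2 ^ h) :
    cls h (sr h s x) = sp (min s (2 * h - s) + 1) x := by
  have h1 := isSp_sr hs hx
  have hz1 : np h * 2 ^ h ≤ z0 h * 2 ^ h := Nat.mul_le_mul_right _ (by unfold z0; omega)
  have hz2 : z0 h * 2 ^ h ≤ (z0 h + 1) * 2 ^ h := Nat.mul_le_mul_right _ (by omega)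
  unfold cls
  rw [if_neg (not_lt.2 ((hz1.trans hz2).trans h1.1)), if_neg (not_lt.2 (hz2.trans h1.1)),
    if_neg (not_lt.2 h1.1), if_pos h1.2, sr_div hs, sr_mod hs]

/-- frame-like type numbers -/
def FLk (h k : ℕ) : Prop := k ≤ z0 h ∨ (z0 h + 2 * h + 2 ≤ k ∧ k < z0 h + 2 * h + 4)

lemma notSp_fl {h k y : ℕ} (hk : FLk h k) (hy : y < 2 ^ h) : ¬ isSp h (fl h k y) := by
  unfold isSp
  rw [mul_aux]
  rintro ⟨h1, h2⟩
  rcases hk with hk | hk
  · have := fl_lt (h := h) (m := z0 h + 1) (by omega : k < z0 h + 1) hy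
    omega
  · have := le_fl (h := h) (y := y) hk.1
    omega

lemma pos_fl {h k y : ℕ} (hk : FLk h k) (hy : y < 2 ^ h) : pos h (fl h k y) = y := by
  unfold pos
  rw [if_neg (notSp_fl hk hy), fl_mod hy]

end Crest.Agent.H4.S66
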