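import Mathlib
import Crest.Agent.H4.S66Host

set_option autoImplicit false

namespace Crest.Agent.H4.S66
open Cls Crest.CombinatoricsR.OrderedMatrix

/-- the 66 × 66 pattern -/
def H66 (a b : Fin 66) : Bool :=
  if (a : ℕ) < 54 ∨ (b : ℕ) < 54 then true else Hc (a - 54) (b - 54)

/-- extension by `false` -/
def ext {n : ℕ} (B : Fin n → Fin n → Bool) (r c : ℕ) : Bool :=
  if hrc : r < n ∧ c < n then B ⟨r, hrc.1⟩ ⟨c, hrc.2⟩ else false

/-- lines of a copy -/
def lineN (h q y : ℕ) (X : ℕ → ℕ) (a : ℕ) : ℕ :=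
  if a < 54 then fl h a y else if a < 63 then fl h (np h + 9 * q + (a - 54)) y else X (a - 63)

lemma fl_mono {h k k' y : ℕ} (hk : k < k') : fl h k y < fl h k' y := by
  unfold fl
  have : (k + 1) * 2 ^ h ≤ k' * 2 ^ h := Nat.mul_le_mul_right _ hk
  have h2 : 0 < 2 ^ h := by positivity
  nlinarith

lemma lineN_lt {h q y : ℕ} {X : ℕ → ℕ} (hh : 1 ≤ h) (hy : y < 2 ^ h) (hq : q < 2 * h + 3)
    (hX01 : X 0 < X 1) (hX12 : X 1 < X 2)
    (hX2 : X 2 < (386 * h + 2) * 2 ^ h) {a : ℕ} (ha : a < 66) :
    lineN h q y X a < (386 * h + 2) * 2 ^ h := by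
  have hnp := np_ge hh
  have ht := total_eq hh
  unfold lineN
  split_ifs with h1 h2
  · exact fl_lt (by unfold z0 at ht; omega) hy
  · exact fl_lt (by unfold z0 at ht; omega) hy
  · have : a - 63 = 0 ∨ a - 63 = 1 ∨ a - 63 = 2 := by omega
    rcases this with h3 | h3 | h3 <;> rw [h3] <;> omega

lemma lineN_mono {h q y : ℕ} {X : ℕ → ℕ} (hh : 1 ≤ h) (hy : y < 2 ^ h) (hq : q < 2 * h + 3)
    (hX0 : z0 h * 2 ^ h ≤ X 0) (hX01 : X 0 < X 1) (hX12 : X 1 < X 2)
    {a b : ℕ} (hab : a < b) (hb : b < 66) : lineN h q y X a < lineN h q y X b := by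
  have hnp := np_ge hh
  have hXle : ∀ c, c < 3 → X 0 ≤ X c := by
    intro c hc
    have : c = 0 ∨ c = 1 ∨ c = 2 := by omega
    rcases this with h3 | h3 | h3 <;> rw [h3] <;> omega
  have hfX : ∀ k, k < z0 h → ∀ c, c < 3 → fl h k y < X c := by
    intro k hk c hc
    have := fl_lt (h := h) hk hy
    have := hXle c hc
    omega
  unfold lineN
  split_ifs with h1 h2 h3 h4 h5 h6
  · exact fl_mono hab
  · exact fl_mono (by omega)
  · exact hfX _ (by unfold z0; omega) _ (by omega)
  · omega
  · exact fl_mono (by omega)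
  · exact hfX _ (by unfold z0; omega) _ (by omega)
  · omega
  · omega
  · have : (a - 63 = 0 ∧ b - 63 = 1) ∨ (a - 63 = 0 ∧ b - 63 = 2) ∨ (a - 63 = 1 ∧ b - 63 = 2) := by
      omega
    rcases this with ⟨h7, h8⟩ | ⟨h7, h8⟩ | ⟨h7, h8⟩ <;> rw [h7, h8] <;> omega

/-- constructing a copy -/
lemma mkcopy {h : ℕ} (hh : 1 ≤ h)
    (B : Fin ((386 * h + 2) * 2 ^ h) → Fin ((386 * h + 2) * 2 ^ h) → Bool)
    {y y' : ℕ} (hy : y < 2 ^ h) (hy' : y' < 2 ^ h)
    (A3 : ∀ k, k < z0 h → ∀ k', k' < z0 h →
      ext B (fl h k y') (fl h k' y) = val h (cls h (fl h k y')) (cls h (fl h k' y)))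
    {q q' : ℕ} (hq : q < 2 * h + 3) (hq' : q' < 2 * h + 3) (hflag : ¬ (q' ≠ q ∧ q' / 2 = q / 2))
    (X Y : ℕ → ℕ)
    (hX0 : z0 h * 2 ^ h ≤ X 0) (hX01 : X 0 < X 1) (hX12 : X 1 < X 2)
    (hX2 : X 2 < (386 * h + 2) * 2 ^ h)
    (hY0 : z0 h * 2 ^ h ≤ Y 0) (hY01 : Y 0 < Y 1) (hY12 : Y 1 < Y 2)
    (hY2 : Y 2 < (386 * h + 2) * 2 ^ h)
    (AX : ∀ c, c < 3 → ∀ k, k < z0 h →
      ext B (X c) (fl h k y) = val h (cls h (X c)) (cls h (fl h k y)))
    (AY : ∀ c, c < 3 → ∀ k, k < z0 h →
      ext B (fl h k y') (Y c) = val h (cls h (fl h k y')) (cls h (Y c)))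
    (sX : ∀ c, c < 3 → 2 ≤ reg (cls h (X c))) (sY : ∀ c, c < 3 → 2 ≤ reg (cls h (Y c)))
    (cX : ∀ c, c < 3 → ∀ b, b < 9 → code h (cls h (X c)) q b = Hc (9 + c) b)
    (cY : ∀ c, c < 3 → ∀ a, a < 9 → code h (cls h (Y c)) q' a = Hc (9 + c) a)
    (hXY : ∀ c, c < 3 → ∀ d, d < 3 → ext B (X c) (Y d) = Hc (9 + c) (9 + d)) :
    orderedCopyCount H66 B ≠ 0 := by
  have hnp := np_ge hh
  have key : ∀ a b, a < 66 → b < 66 → ext B (lineN h q' y' X a) (lineN h q y Y b) =
      (if a < 54 ∨ b < 54 then true else Hc (a - 54) (b - 54)) := by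
    intro a b ha hb
    have hz : ∀ q'' : ℕ, q'' < 2 * h + 3 → ∀ a' : ℕ, a' < 9 → np h + 9 * q'' + a' < z0 h := by
      intro q'' hq'' a' ha'
      unfold z0
      omega
    by_cases ha1 : a < 54
    · -- pad row
      rw [if_pos (Or.inl ha1)]
      have e1 : lineN h q' y' X a = fl h a y' := by unfold lineN; rw [if_pos ha1]
      have e2 : cls h (fl h a y') = pad := cls_fl_pad (by omega) hy'
      rw [e1]
      by_cases hb1 : b < 54
      · have e3 : lineN h q y Y b = fl h b y := by unfold lineN; rw [if_pos hb1]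
        rw [e3, A3 a (by unfold z0; omega) b (by unfold z0; omega), e2]
        rfl
      · by_cases hb2 : b < 63
        · have e3 : lineN h q y Y b = fl h (np h + 9 * q + (b - 54)) y := by
            unfold lineN; rw [if_neg hb1, if_pos hb2]
          rw [e3, A3 a (by unfold z0; omega) _ (hz q hq (b - 54) (by omega)), e2]
          rfl
        · have e3 : lineN h q y Y b = Y (b - 63) := by
            unfold lineN; rw [if_neg hb1, if_neg hb2]
          rw [e3, AY (b - 63) (by omega) a (by unfold z0; omega), e2]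
          rfl
    · by_cases hb1 : b < 54
      · -- pad column
        rw [if_pos (Or.inr hb1)]
        have e3 : lineN h q y Y b = fl h b y := by unfold lineN; rw [if_pos hb1]
        have e2 : cls h (fl h b y) = pad := cls_fl_pad (by omega) hy
        rw [e3]
        by_cases ha2 : a < 63
        · have e1 : lineN h q' y' X a = fl h (np h + 9 * q' + (a - 54)) y' := by
            unfold lineN; rw [if_neg ha1, if_pos ha2]
          rw [e1, A3 _ (hz q' hq' (a - 54) (by omega)) b (by unfold z0; omega), e2, val_comm]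
          rfl
        · have e1 : lineN h q' y' X a = X (a - 63) := by
            unfold lineN; rw [if_neg ha1, if_neg ha2]
          rw [e1, AX (a - 63) (by omega) b (by unfold z0; omega), e2, val_comm]
          rfl
      · rw [if_neg (by omega)]
        by_cases ha2 : a < 63
        · have e1 : lineN h q' y' X a = fl h (np h + 9 * q' + (a - 54)) y' := by
            unfold lineN; rw [if_neg ha1, if_pos ha2]
          by_cases hb2 : b < 63
          · have e3 : lineN h q y Y b = fl h (np h + 9 * q + (b - 54)) y := by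
              unfold lineN; rw [if_neg hb1, if_pos hb2]
            rw [e1, e3, A3 _ (hz q' hq' (a - 54) (by omega)) _ (hz q hq (b - 54) (by omega)),
              cls_fl_fr' hq' (by omega) hy', cls_fl_fr' hq (by omega) hy,
              Hc_eq_Gam (by omega) (by omega)]
            simp only [val]
            have : (decide (q' ≠ q) && decide (q' / 2 = q / 2)) = false := by
              by_contra hcon
              apply hflag
              simpa using hcon
            rw [Bool.and_assoc (decide (a - 54 = 8) && decide (b - 54 = 8)), this]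
            simp
          · have e3 : lineN h q y Y b = Y (b - 63) := by
              unfold lineN; rw [if_neg hb1, if_neg hb2]
            rw [e1, e3, AY (b - 63) (by omega) _ (hz q' hq' (a - 54) (by omega)),
              cls_fl_fr' hq' (by omega) hy', val_fr_special (sY _ (by omega)),
              cY (b - 63) (by omega) (a - 54) (by omega), Hc_comm]
            congr 1
            omega
        · have e1 : lineN h q' y' X a = X (a - 63) := by
            unfold lineN; rw [if_neg ha1, if_neg ha2]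
          by_cases hb2 : b < 63
          · have e3 : lineN h q y Y b = fl h (np h + 9 * q + (b - 54)) y := by
              unfold lineN; rw [if_neg hb1, if_pos hb2]
            rw [e1, e3, AX (a - 63) (by omega) _ (hz q hq (b - 54) (by omega)),
              cls_fl_fr' hq (by omega) hy, val_special_fr (sX _ (by omega)),
              cX (a - 63) (by omega) (b - 54) (by omega)]
            congr 1
            omega
          · have e3 : lineN h q y Y b = Y (b - 63) := by
              unfold lineN; rw [if_neg hb1, if_neg hb2]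
            rw [e1, e3, hXY (a - 63) (by omega) (b - 63) (by omega)]
            congr 1 <;> omega
  have hlX : ∀ a : Fin 66, lineN h q' y' X a < (386 * h + 2) * 2 ^ h := fun a =>
    lineN_lt hh hy' hq' hX01 hX12 hX2 a.2
  have hlY : ∀ a : Fin 66, lineN h q y Y a < (386 * h + 2) * 2 ^ h := fun a =>
    lineN_lt hh hy hq hY01 hY12 hY2 a.2
  unfold orderedCopyCount
  rw [Ne, Fintype.card_eq_zero_iff]
  intro hemp
  refine hemp.false ⟨(fun a => ⟨lineN h q' y' X a, hlX a⟩, fun b => ⟨lineN h q y Y b, hlY b⟩), ?_, ?_, ?_⟩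
  · intro a b hab
    exact lineN_mono hh hy' hq' hX0 hX01 hX12 (Fin.lt_def.1 hab) b.2
  · intro a b hab
    exact lineN_mono hh hy hq hY0 hY01 hY12 (Fin.lt_def.1 hab) b.2
  · intro i j
    have := key i j i.2 j.2
    unfold ext at this
    rw [dif_pos ⟨hlX i, hlY j⟩] at this
    simp only
    rw [this]
    rfl

end Crest.Agent.H4.S66
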