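import Mathlib
import Crest.Agent.H4.S66Copy

set_option autoImplicit false

namespace Crest.Agent.H4.S66
open Cls Crest.CombinatoricsR.OrderedMatrix

def lev (h s : ℕ) : ℕ := min s (2 * h - s) + 1

def lo (h x y k : ℕ) : ℕ := if k = 0 then fl h (z0 h) y else sr h (k - 1) x

def hi (h x y k : ℕ) : ℕ := if k = 0 then fl h (z0 h + 2 * h + 3) y else sr h (2 * h + 1 - k) x

def tri (a b c : ℕ) (k : ℕ) : ℕ := if k = 0 then a else if k = 1 then b else c

lemma tri_prop {P : ℕ → ℕ → Prop} {a b c : ℕ} (h0 : P 0 a) (h1 : P 1 b) (h2 : P 2 c) :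
    ∀ k, k < 3 → P k (tri a b c k) := by
  intro k hk
  have : k = 0 ∨ k = 1 ∨ k = 2 := by omega
  rcases this with rfl | rfl | rfl <;> simpa [tri]

lemma code_x {h : ℕ} {s : Cls} {q : ℕ} (hx : xT h s q = true) (hu : uT h s q = false) :
    (∀ b, b < 9 → code h s q b = Hc 9 b) ∧ (∀ b, b < 9 → code h s q b = Hc 11 b) := by
  constructor <;> intro b hb <;> simp [code, hx, hu, Hc, hb]

lemma code_u {h : ℕ} {s : Cls} {q : ℕ} (hx : xT h s q = false) (hu : uT h s q = true) :
    ∀ b, b < 9 → code h s q b = Hc 10 b := by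
  intro b hb; simp [code, hx, hu, Hc, hb]

lemma types_lower {h k i x q : ℕ} (hk1 : 1 ≤ k) (hi : i = k + 1)
    (hq : q = 2 * (i - 1) + (x / 2 ^ (h - i)) % 2) :
    xT h (sp k x) q = true ∧ uT h (sp k x) q = false := by
  have b1 : (x / 2 ^ (h - i)) % 2 < 2 := Nat.mod_lt _ (by norm_num)
  have b2 : (x / 2 ^ (h - k)) % 2 < 2 := Nat.mod_lt _ (by norm_num)
  simp only [xT, uT, decide_eq_true_eq, decide_eq_false_iff_not]
  omega

lemma types_upper {h i x q : ℕ} (hi : 1 ≤ i)
    (hq : q = 2 * (i - 1) + (x / 2 ^ (h - i)) % 2) :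
    xT h (sp i x) q = false ∧ uT h (sp i x) q = true := by
  have b1 : (x / 2 ^ (h - i)) % 2 < 2 := Nat.mod_lt _ (by norm_num)
  simp only [xT, uT, decide_eq_true_eq, decide_eq_false_iff_not]
  omega

lemma cls_lo {h x y k : ℕ} (hk : k ≤ h + 1) (hx : x < 2 ^ h) (hy : y < 2 ^ h) :
    cls h (lo h x y k) = if k = 0 then zm else sp k x := by
  unfold lo
  split_ifs with h1
  · exact cls_fl_zm hy
  · rw [cls_sr (by omega) hx]
    congr 1
    omega

lemma cls_hi {h x y k : ℕ} (hk : k ≤ h + 1) (hx : x < 2 ^ h) :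
    cls h (hi h x y k) = if k = 0 then zp else sp k x := by
  unfold hi
  split_ifs with h1
  · exact cls_fl_zp
  · rw [cls_sr (by omega) hx]
    congr 1
    omega

lemma reg_cls_lo {h x y k : ℕ} (hk : k ≤ h + 1) (hx : x < 2 ^ h) (hy : y < 2 ^ h) :
    2 ≤ reg (cls h (lo h x y k)) := by
  rw [cls_lo hk hx hy]; split_ifs <;> simp [reg]

lemma reg_cls_hi {h x y k : ℕ} (hk : k ≤ h + 1) (hx : x < 2 ^ h) :
    2 ≤ reg (cls h (hi h x y k)) := by
  rw [cls_hi hk hx]; split_ifs <;> simp [reg]

lemma lev_le {h s : ℕ} : lev h s ≤ h + 1 := by unfold lev; omega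

lemma one_le_lev {h s : ℕ} : 1 ≤ lev h s := by unfold lev; omega

lemma lo_lt {h x y s : ℕ} (hs : s < 2 * h + 1) (hy : y < 2 ^ h) :
    lo h x y (lev h s - 1) < sr h s x := by
  unfold lo
  split_ifs with h1
  · have := fl_lt (h := h) (m := z0 h + 1) (by omega : z0 h < z0 h + 1) hy
    unfold sr
    omega
  · unfold lev at *
    unfold sr
    omega

lemma lt_hi {h x y s : ℕ} (hs : s < 2 * h + 1) (hx : x < 2 ^ h) :
    sr h s x < hi h x y (lev h s - 1) := by
  unfold hi
  split_ifs with h1
  · have h2 := sr_lt hs hx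
    rw [mul_aux] at h2
    have := le_fl (h := h) (k := z0 h + 2 * h + 3) (y := y) (m := z0 h + 2 * h + 2) (by omega)
    omega
  · unfold lev at *
    unfold sr
    omega

lemma z0_le_lo {h x y k : ℕ} : z0 h * 2 ^ h ≤ lo h x y k := by
  unfold lo
  split_ifs
  · exact le_fl le_rfl
  · unfold sr
    have : z0 h * 2 ^ h ≤ (z0 h + 1) * 2 ^ h := Nat.mul_le_mul_right _ (by omega)
    omega

lemma hi_lt {h x y k : ℕ} (hh : 1 ≤ h) (hx : x < 2 ^ h) (hy : y < 2 ^ h) :
    hi h x y k < (386 * h + 2) * 2 ^ h := by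
  have ht := total_eq hh
  rw [← ht]
  unfold hi
  split_ifs
  · exact fl_lt (by omega) hy
  · have h2 := sr_lt (h := h) (s := 2 * h + 1 - k) (x := x) (by omega) hx
    rw [mul_aux] at h2
    have : (z0 h + 2 * h + 2) * 2 ^ h ≤ (z0 h + 2 * h + 4) * 2 ^ h := Nat.mul_le_mul_right _ (by omega)
    omega

theorem exists_copy {h : ℕ} (hh : 1 ≤ h)
    (B : Fin ((386 * h + 2) * 2 ^ h) → Fin ((386 * h + 2) * 2 ^ h) → Bool)
    {x y y' : ℕ} (hx : x < 2 ^ h) (hy : y < 2 ^ h) (hy' : y' < 2 ^ h)
    (A1 : ∀ s, s < 2 * h + 1 → ∀ k, FLk h k →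
      ext B (sr h s x) (fl h k y) = val h (cls h (sr h s x)) (cls h (fl h k y)))
    (A2 : ∀ k, FLk h k → ∀ s, s < 2 * h + 1 →
      ext B (fl h k y') (sr h s x) = val h (cls h (fl h k y')) (cls h (sr h s x)))
    (A3 : ∀ k, FLk h k → ∀ k', FLk h k' →
      ext B (fl h k y') (fl h k' y) = val h (cls h (fl h k y')) (cls h (fl h k' y))) :
    orderedCopyCount H66 B ≠ 0 := by
  have fk : ∀ k, k < z0 h → FLk h k := fun k hk => Or.inl (by omega)
  have fz : FLk h (z0 h) := Or.inl le_rfl
  have fu : FLk h (z0 h + 2 * h + 2) := Or.inr ⟨by omega, by omega⟩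
  have fp : FLk h (z0 h + 2 * h + 3) := Or.inr ⟨by omega, by omega⟩
  have ht := total_eq hh
  cases hcen : ext B (sr h h x) (sr h h x) with
  | true =>
    have csr : cls h (sr h h x) = sp (h + 1) x := by
      rw [cls_sr (by omega) hx]; congr 1; omega
    have cus : cls h (fl h (z0 h + 2 * h + 2) y') = us := cls_fl_us hy'
    have czp : cls h (fl h (z0 h + 2 * h + 3) y') = zp := cls_fl_zp
    have cus' : cls h (fl h (z0 h + 2 * h + 2) y) = us := cls_fl_us hy
    have czp' : cls h (fl h (z0 h + 2 * h + 3) y) = zp := cls_fl_zp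
    have hz : z0 h * 2 ^ h ≤ sr h h x := by
      unfold sr
      have : z0 h * 2 ^ h ≤ (z0 h + 1) * 2 ^ h := Nat.mul_le_mul_right _ (by omega)
      omega
    have hlt1 : ∀ w : ℕ, sr h h x < fl h (z0 h + 2 * h + 2) w := by
      intro w
      have h2 := sr_lt (h := h) (s := h) (x := x) (by omega) hx
      rw [mul_aux] at h2
      have := le_fl (h := h) (k := z0 h + 2 * h + 2) (y := w) (m := z0 h + 2 * h + 2) le_rfl
      omega
    have ty1 : xT h (sp (h + 1) x) (2 * h + 2) = true ∧ uT h (sp (h + 1) x) (2 * h + 2) = false := by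
      have b2 : (x / 2 ^ (h - (h + 1))) % 2 < 2 := Nat.mod_lt _ (by norm_num)
      simp only [xT, uT, decide_eq_true_eq, decide_eq_false_iff_not]
      omega
    have ty2 : xT h us (2 * h + 2) = false ∧ uT h us (2 * h + 2) = true := by
      simp [xT, uT]
    have ty3 : xT h zp (2 * h + 2) = true ∧ uT h zp (2 * h + 2) = false := by
      simp [xT, uT]
    refine mkcopy hh B hy hy' (fun k hk k' hk' => A3 k (fk k hk) k' (fk k' hk'))
      (q := 2 * h + 2) (q' := 2 * h + 2) (by omega) (by omega) (by simp)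
      (tri (sr h h x) (fl h (z0 h + 2 * h + 2) y') (fl h (z0 h + 2 * h + 3) y'))
      (tri (sr h h x) (fl h (z0 h + 2 * h + 2) y) (fl h (z0 h + 2 * h + 3) y))
      hz (hlt1 y') (fl_mono (by omega)) ?_ hz (hlt1 y) (fl_mono (by omega)) ?_ ?_ ?_ ?_ ?_ ?_ ?_ ?_
    · rw [← ht]; exact fl_lt (by omega) hy'
    · rw [← ht]; exact fl_lt (by omega) hy
    · apply tri_prop (P := fun _ r => ∀ k, k < z0 h → ext B r (fl h k y) = val h (cls h r) (cls h (fl h k y)))
      · exact fun k hk => A1 h (by omega) k (fk k hk)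
      · exact fun k hk => A3 _ fu k (fk k hk)
      · exact fun k hk => A3 _ fp k (fk k hk)
    · apply tri_prop (P := fun _ c => ∀ k, k < z0 h → ext B (fl h k y') c = val h (cls h (fl h k y')) (cls h c))
      · exact fun k hk => A2 k (fk k hk) h (by omega)
      · exact fun k hk => A3 k (fk k hk) _ fu
      · exact fun k hk => A3 k (fk k hk) _ fp
    · apply tri_prop (P := fun _ r => 2 ≤ reg (cls h r))
      · rw [csr]; simp [reg]
      · rw [cus]; simp [reg]
      · rw [czp]; simp [reg]
    · apply tri_prop (P := fun _ r => 2 ≤ reg (cls h r))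
      · rw [csr]; simp [reg]
      · rw [cus']; simp [reg]
      · rw [czp']; simp [reg]
    · apply tri_prop (P := fun c r => ∀ b, b < 9 → code h (cls h r) (2 * h + 2) b = Hc (9 + c) b)
      · rw [csr]; exact (code_x ty1.1 ty1.2).1
      · rw [cus]; exact code_u ty2.1 ty2.2
      · rw [czp]; exact (code_x ty3.1 ty3.2).2
    · apply tri_prop (P := fun c r => ∀ b, b < 9 → code h (cls h r) (2 * h + 2) b = Hc (9 + c) b)
      · rw [csr]; exact (code_x ty1.1 ty1.2).1
      · rw [cus']; exact code_u ty2.1 ty2.2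
      · rw [czp']; exact (code_x ty3.1 ty3.2).2
    · apply tri_prop (P := fun c r => ∀ d, d < 3 → ext B r (tri (sr h h x) (fl h (z0 h + 2 * h + 2) y) (fl h (z0 h + 2 * h + 3) y) d) = Hc (9 + c) (9 + d))
      · apply tri_prop (P := fun d s => ext B (sr h h x) s = Hc (9 + 0) (9 + d))
        · rw [hcen]; decide
        · rw [A1 h (by omega) _ fu, csr, cus']; simp [val, ss]; decide
        · rw [A1 h (by omega) _ fp, csr, czp']; simp [val, ss]; decide
      · apply tri_prop (P := fun d s => ext B (fl h (z0 h + 2 * h + 2) y') s = Hc (9 + 1) (9 + d))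
        · rw [A2 _ fu h (by omega), csr, cus]; simp [val, ss]; decide
        · rw [A3 _ fu _ fu, cus, cus']; simp [val, ss]; decide
        · rw [A3 _ fu _ fp, cus, czp']; simp [val, ss]; decide
      · apply tri_prop (P := fun d s => ext B (fl h (z0 h + 2 * h + 3) y') s = Hc (9 + 2) (9 + d))
        · rw [A2 _ fp h (by omega), csr, czp]; simp [val, ss]; decide
        · rw [A3 _ fp _ fu, czp, cus']; simp [val, ss]; decide
        · rw [A3 _ fp _ fp, czp, czp']; simp [val, ss]; decide
  | false =>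
    -- minimal zero
    have hex : ∃ m, ∃ s t, s < 2 * h + 1 ∧ t < 2 * h + 1 ∧ ext B (sr h s x) (sr h t x) = false ∧
        lev h s + lev h t = m := ⟨_, h, h, by omega, by omega, hcen, rfl⟩
    classical
    obtain ⟨s, t, hs, ht', hst, hm⟩ := Nat.find_spec hex
    have hmin : ∀ s' t', s' < 2 * h + 1 → t' < 2 * h + 1 → lev h s' + lev h t' < lev h s + lev h t →
        ext B (sr h s' x) (sr h t' x) = true := by
      intro s' t' hs' ht'' hlt
      by_contra hcon
      have hcon' : ext B (sr h s' x) (sr h t' x) = false := by simpa using hcon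
      exact Nat.find_min hex (by omega) ⟨s', t', hs', ht'', hcon', rfl⟩
    -- levels
    obtain ⟨i, hi_def⟩ : ∃ i, i = lev h s := ⟨_, rfl⟩
    obtain ⟨j, hj_def⟩ : ∃ j, j = lev h t := ⟨_, rfl⟩
    have hi1 : 1 ≤ i := by rw [hi_def]; exact one_le_lev
    have hj1 : 1 ≤ j := by rw [hj_def]; exact one_le_lev
    have hih : i ≤ h + 1 := by rw [hi_def]; exact lev_le
    have hjh : j ≤ h + 1 := by rw [hj_def]; exact lev_le
    have bi : (x / 2 ^ (h - i)) % 2 < 2 := Nat.mod_lt _ (by norm_num)
    have bj : (x / 2 ^ (h - j)) % 2 < 2 := Nat.mod_lt _ (by norm_num)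
    obtain ⟨q, hq⟩ : ∃ q, q = 2 * (i - 1) + (x / 2 ^ (h - i)) % 2 := ⟨_, rfl⟩
    obtain ⟨q', hq'⟩ : ∃ q', q' = 2 * (j - 1) + (x / 2 ^ (h - j)) % 2 := ⟨_, rfl⟩
    have cs : cls h (sr h s x) = sp i x := by rw [cls_sr hs hx, hi_def]; rfl
    have ct : cls h (sr h t x) = sp j x := by rw [cls_sr ht' hx, hj_def]; rfl
    -- rows at level k: agreement with frame-like columns
    have AXlo : ∀ k, k < 2 * h + 2 → ∀ m, FLk h m →
        ext B (lo h x y' k) (fl h m y) = val h (cls h (lo h x y' k)) (cls h (fl h m y)) := by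
      intro k hk m hm
      unfold lo
      split_ifs
      · exact A3 _ fz m hm
      · exact A1 _ (by omega) m hm
    have AXhi : ∀ k, k < 2 * h + 2 → ∀ m, FLk h m →
        ext B (hi h x y' k) (fl h m y) = val h (cls h (hi h x y' k)) (cls h (fl h m y)) := by
      intro k hk m hm
      unfold hi
      split_ifs
      · exact A3 _ fp m hm
      · exact A1 _ (by omega) m hm
    have AYlo : ∀ k, k < 2 * h + 2 → ∀ m, FLk h m →
        ext B (fl h m y') (lo h x y k) = val h (cls h (fl h m y')) (cls h (lo h x y k)) := by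
      intro k hk m hm
      unfold lo
      split_ifs
      · exact A3 m hm _ fz
      · exact A2 m hm _ (by omega)
    have AYhi : ∀ k, k < 2 * h + 2 → ∀ m, FLk h m →
        ext B (fl h m y') (hi h x y k) = val h (cls h (fl h m y')) (cls h (hi h x y k)) := by
      intro k hk m hm
      unfold hi
      split_ifs
      · exact A3 m hm _ fp
      · exact A2 m hm _ (by omega)
    -- values among special lines
    have vzm : ∀ r, 2 ≤ reg r → val h zm r = true := by
      intro r hr; cases r <;> simp [reg, val, ss] at *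
    have vzp : ∀ r, 2 ≤ reg r → val h zp r = true := by
      intro r hr; cases r <;> simp [reg, val, ss] at *
    have rsr : ∀ s', s' < 2 * h + 1 → 2 ≤ reg (cls h (sr h s' x)) := by
      intro s' hs'; rw [cls_sr hs' hx]; simp [reg]
    -- generic statement: a row of level k (`lo` or `hi` or middle) against a column
    have levlo : ∀ k, 1 ≤ k → k ≤ h + 1 → lev h (k - 1) = k := by
      intro k h1 h2; unfold lev; omega
    have levhi : ∀ k, 1 ≤ k → k ≤ h + 1 → lev h (2 * h + 1 - k) = k := by
      intro k h1 h2; unfold lev; omega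
    -- row `lo`/`hi` of level i-1 against sr t'
    have rowlo_sr : ∀ t', t' < 2 * h + 1 → lev h t' ≤ j → ext B (lo h x y' (i - 1)) (sr h t' x) = true := by
      intro t' ht'' hle
      unfold lo
      split_ifs with h0
      · rw [A2 _ fz t' ht'', cls_fl_zm hy']; exact vzm _ (rsr t' ht'')
      · exact hmin _ _ (by omega) ht'' (by rw [levlo _ (by omega) (by omega)]; omega)
    have rowhi_sr : ∀ t', t' < 2 * h + 1 → lev h t' ≤ j → ext B (hi h x y' (i - 1)) (sr h t' x) = true := by
      intro t' ht'' hle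
      unfold hi
      split_ifs with h0
      · rw [A2 _ fp t' ht'', cls_fl_zp]; exact vzp _ (rsr t' ht'')
      · exact hmin _ _ (by omega) ht'' (by rw [levhi _ (by omega) (by omega)]; omega)
    have collo_sr : ∀ s', s' < 2 * h + 1 → lev h s' ≤ i → ext B (sr h s' x) (lo h x y (j - 1)) = true := by
      intro s' hs' hle
      unfold lo
      split_ifs with h0
      · rw [A1 s' hs' _ fz, cls_fl_zm hy, val_comm]; exact vzm _ (rsr s' hs')
      · exact hmin _ _ hs' (by omega) (by rw [levlo _ (by omega) (by omega)]; omega)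
    have colhi_sr : ∀ s', s' < 2 * h + 1 → lev h s' ≤ i → ext B (sr h s' x) (hi h x y (j - 1)) = true := by
      intro s' hs' hle
      unfold hi
      split_ifs with h0
      · rw [A1 s' hs' _ fp, cls_fl_zp, val_comm]; exact vzp _ (rsr s' hs')
      · exact hmin _ _ hs' (by omega) (by rw [levhi _ (by omega) (by omega)]; omega)
    have rclo : ∀ k, k ≤ h + 1 → 2 ≤ reg (cls h (lo h x y k)) := fun k hk => reg_cls_lo hk hx hy
    have rchi : ∀ k, k ≤ h + 1 → 2 ≤ reg (cls h (hi h x y k)) := fun k hk => reg_cls_hi hk hx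
    -- lo/hi against lo/hi
    have lolo : ext B (lo h x y' (i - 1)) (lo h x y (j - 1)) = true := by
      by_cases h0 : i - 1 = 0
      · have e : lo h x y' (i - 1) = fl h (z0 h) y' := by unfold lo; rw [if_pos h0]
        rw [e, AYlo (j - 1) (by omega) _ fz, cls_fl_zm hy']
        exact vzm _ (rclo _ (by omega))
      · have e : lo h x y' (i - 1) = sr h (i - 1 - 1) x := by unfold lo; rw [if_neg h0]
        rw [e]
        exact collo_sr _ (by omega) (by rw [levlo _ (by omega) (by omega)]; omega)
    have lohi : ext B (lo h x y' (i - 1)) (hi h x y (j - 1)) = true := by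
      by_cases h0 : i - 1 = 0
      · have e : lo h x y' (i - 1) = fl h (z0 h) y' := by unfold lo; rw [if_pos h0]
        rw [e, AYhi (j - 1) (by omega) _ fz, cls_fl_zm hy']
        exact vzm _ (rchi _ (by omega))
      · have e : lo h x y' (i - 1) = sr h (i - 1 - 1) x := by unfold lo; rw [if_neg h0]
        rw [e]
        exact colhi_sr _ (by omega) (by rw [levlo _ (by omega) (by omega)]; omega)
    have hilo : ext B (hi h x y' (i - 1)) (lo h x y (j - 1)) = true := by
      by_cases h0 : i - 1 = 0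
      · have e : hi h x y' (i - 1) = fl h (z0 h + 2 * h + 3) y' := by unfold hi; rw [if_pos h0]
        rw [e, AYlo (j - 1) (by omega) _ fp, cls_fl_zp]
        exact vzp _ (rclo _ (by omega))
      · have e : hi h x y' (i - 1) = sr h (2 * h + 1 - (i - 1)) x := by unfold hi; rw [if_neg h0]
        rw [e]
        exact collo_sr _ (by omega) (by rw [levhi _ (by omega) (by omega)]; omega)
    have hihi : ext B (hi h x y' (i - 1)) (hi h x y (j - 1)) = true := by
      by_cases h0 : i - 1 = 0
      · have e : hi h x y' (i - 1) = fl h (z0 h + 2 * h + 3) y' := by unfold hi; rw [if_pos h0]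
        rw [e, AYhi (j - 1) (by omega) _ fp, cls_fl_zp]
        exact vzp _ (rchi _ (by omega))
      · have e : hi h x y' (i - 1) = sr h (2 * h + 1 - (i - 1)) x := by unfold hi; rw [if_neg h0]
        rw [e]
        exact colhi_sr _ (by omega) (by rw [levhi _ (by omega) (by omega)]; omega)
    -- types
    have tylo : ∀ w, w < 2 ^ h → ∀ i' q'' : ℕ, 1 ≤ i' → i' ≤ h + 1 →
        q'' = 2 * (i' - 1) + (x / 2 ^ (h - i')) % 2 →
        xT h (cls h (lo h x w (i' - 1))) q'' = true ∧ uT h (cls h (lo h x w (i' - 1))) q'' = false := by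
      intro w hw i' q'' h1 h2 h3
      rw [cls_lo (by omega) hx hw]
      split_ifs with h0
      · have : (x / 2 ^ (h - i')) % 2 < 2 := Nat.mod_lt _ (by norm_num)
        refine ⟨?_, rfl⟩
        simp only [xT, decide_eq_true_eq]
        omega
      · exact types_lower (by omega) (by omega) h3
    have tyhi : ∀ w, ∀ i' q'' : ℕ, 1 ≤ i' → i' ≤ h + 1 →
        q'' = 2 * (i' - 1) + (x / 2 ^ (h - i')) % 2 →
        xT h (cls h (hi h x w (i' - 1))) q'' = true ∧ uT h (cls h (hi h x w (i' - 1))) q'' = false := by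
      intro w i' q'' h1 h2 h3
      rw [cls_hi (by omega) hx]
      split_ifs with h0
      · have : (x / 2 ^ (h - i')) % 2 < 2 := Nat.mod_lt _ (by norm_num)
        refine ⟨?_, rfl⟩
        simp only [xT, decide_eq_true_eq, Bool.or_eq_true]
        omega
      · exact types_lower (by omega) (by omega) h3
    have tyi := types_upper (h := h) (x := x) hi1 hq
    have tyj := types_upper (h := h) (x := x) hj1 hq'
    have X01 : lo h x y' (i - 1) < sr h s x := by rw [hi_def]; exact lo_lt hs hy'
    have X12 : sr h s x < hi h x y' (i - 1) := by rw [hi_def]; exact lt_hi hs hx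
    have Y01 : lo h x y (j - 1) < sr h t x := by rw [hj_def]; exact lo_lt ht' hy
    have Y12 : sr h t x < hi h x y (j - 1) := by rw [hj_def]; exact lt_hi ht' hx
    refine mkcopy hh B hy hy' (fun k hk k' hk' => A3 k (fk k hk) k' (fk k' hk'))
      (q := q) (q' := q') (by omega) (by omega) ?_
      (tri (lo h x y' (i - 1)) (sr h s x) (hi h x y' (i - 1)))
      (tri (lo h x y (j - 1)) (sr h t x) (hi h x y (j - 1)))
      z0_le_lo X01 X12 (hi_lt hh hx hy') z0_le_lo Y01 Y12 (hi_lt hh hx hy) ?_ ?_ ?_ ?_ ?_ ?_ ?_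
    · rintro ⟨n1, n2⟩
      have : i = j := by omega
      subst this
      exact n1 (by rw [hq, hq'])
    · apply tri_prop (P := fun _ r => ∀ k, k < z0 h → ext B r (fl h k y) = val h (cls h r) (cls h (fl h k y)))
      · exact fun k hk => AXlo _ (by omega) k (fk k hk)
      · exact fun k hk => A1 s hs k (fk k hk)
      · exact fun k hk => AXhi _ (by omega) k (fk k hk)
    · apply tri_prop (P := fun _ c => ∀ k, k < z0 h → ext B (fl h k y') c = val h (cls h (fl h k y')) (cls h c))
      · exact fun k hk => AYlo _ (by omega) k (fk k hk)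
      · exact fun k hk => A2 k (fk k hk) t ht'
      · exact fun k hk => AYhi _ (by omega) k (fk k hk)
    · apply tri_prop (P := fun _ r => 2 ≤ reg (cls h r))
      · exact reg_cls_lo (by omega) hx hy'
      · rw [cs]; simp [reg]
      · exact reg_cls_hi (by omega) hx
    · apply tri_prop (P := fun _ r => 2 ≤ reg (cls h r))
      · exact reg_cls_lo (by omega) hx hy
      · rw [ct]; simp [reg]
      · exact reg_cls_hi (by omega) hx
    · apply tri_prop (P := fun c r => ∀ b, b < 9 → code h (cls h r) q b = Hc (9 + c) b)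
      · have := tylo y' hy' i q hi1 hih hq
        exact (code_x this.1 this.2).1
      · rw [cs]; exact code_u tyi.1 tyi.2
      · have := tyhi y' i q hi1 hih hq
        exact (code_x this.1 this.2).2
    · apply tri_prop (P := fun c r => ∀ b, b < 9 → code h (cls h r) q' b = Hc (9 + c) b)
      · have := tylo y hy j q' hj1 hjh hq'
        exact (code_x this.1 this.2).1
      · rw [ct]; exact code_u tyj.1 tyj.2
      · have := tyhi y j q' hj1 hjh hq'
        exact (code_x this.1 this.2).2
    · apply tri_prop (P := fun c r => ∀ d, d < 3 → ext B r (tri (lo h x y (j - 1)) (sr h t x) (hi h x y (j - 1)) d) = Hc (9 + c) (9 + d))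
      · apply tri_prop (P := fun d s => ext B (lo h x y' (i - 1)) s = Hc (9 + 0) (9 + d))
        · rw [lolo]; decide
        · rw [rowlo_sr t ht' hj_def.symm.le]; decide
        · rw [lohi]; decide
      · apply tri_prop (P := fun d s' => ext B (sr h s x) s' = Hc (9 + 1) (9 + d))
        · rw [collo_sr s hs hi_def.symm.le]; decide
        · rw [hst]; decide
        · rw [colhi_sr s hs hi_def.symm.le]; decide
      · apply tri_prop (P := fun d s => ext B (hi h x y' (i - 1)) s = Hc (9 + 2) (9 + d))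
        · rw [hilo]; decide
        · rw [rowhi_sr t ht' hj_def.symm.le]; decide
        · rw [hihi]; decide

end Crest.Agent.H4.S66
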